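import Vale.Agent.P088.R2.H808.Z0.Zq

/-!
# P088, stage 3: zone z0 from numbers at the points

`zone0N`: `zone0T` with the unit `s = c' x`, `x = En + sg N`, and one structure of numbers.
-/

open MeasureTheory Set Filter
open scoped ContDiff Topology

noncomputable section

namespace Vale.Agent.P088.R2.H808.Zq

open Vale.Agent.P088.R2.H961.GW Vale.Agent.P088.R2.H644 Vale.Agent.P088.R2.H960.W
open Vale.Agent.P088.R2.H551.E Vale.Agent.P088.R2.H747.SW Vale.Agent.P088.R2.H808.Z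
open Vale.Agent.P088.R2.H86.Z (El)
open Vale.Agent.P088.R2.H972.E (Qz)
open Vale.Agent.P088.R2.H165 (Tab.Nu Tab.M0 Tab.c0)

variable {E ι : Type*} [NormedAddCommGroup E] [NormedSpace ℝ E] [Fintype ι]

/-- `x = En + sg N`. -/
def xf (ν : Tab.Nu E) (sg : ℝ) (z : E) : ℝ := ν.En z + sg * ν.N z

/-- The numbers of one slot at a point. -/
structure Ns (σ : Sl E ι) (v W : E → ℝ) (q : ι → ι → E → ℝ) (ν : Tab.Nu E) (cq C₁ sg : ℝ)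
    (z : E) : Prop where
  qW : cq * (xf ν sg z * ν.N z ^ 2) ≤ qq q (fun i => σ.D i W z) z
  qU : ∀ A : ι → ℝ, qq q A z ≤ C₁ * (ν.K z + xf ν sg z) * ∑ i, A i ^ 2
  dW : ∑ i, σ.D i W z ^ 2 ≤ C₁ * ν.N z ^ 2
  lW : |σ.Λ W z| ≤ C₁ * ν.N z ^ 2
  v : |v z| ≤ 1
  dx : ∑ i, σ.D i (xf ν sg) z ^ 2 ≤ C₁ * (xf ν sg z * ν.N z) ^ 2

/-- The numbers at a point. -/
structure Nz (m : E → ℝ) (ν : Tab.Nu E) (C₁ sg : ℝ) (z : E) : Prop where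
  E0 : 0 ≤ ν.En z
  K0 : 0 ≤ ν.K z
  N1 : 1 ≤ ν.N z
  x1 : xf ν sg z ≤ C₁ * ν.N z
  m1 : m z ≤ C₁ * xf ν sg z

variable {σ τ : Sl E ι} {U Ω S : Set E} {θ : E → ℝ} {v v₁ v₂ W m χ : E → ℝ}
  {c c' : ι → E → ℝ} {q q' : ι → ι → E → ℝ} {η K κ₀ : ℝ} {ν : Tab.Nu E} {cq C₁ sg c₁ : ℝ} {z : E}

/-- The zero order term of the unit. -/
theorem Qz_le (h : Ns σ v W q ν cq C₁ sg z) (hz : Nz m ν C₁ sg z) (el : El σ z) (hC : 1 ≤ C₁)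
    (hsg : 0 ≤ sg) (hc1 : 0 < c₁) (hc : 1500 * (c₁ * C₁) ≤ cq) (hc2 : c₁ ≤ 1) :
    Qz σ v W (fun z => c₁ * xf ν sg z) (fun z => 2 * C₁ * c₁ * (xf ν sg z * ν.N z ^ 2))
      (1 / 32) z ≤ 1 / 6 * qq q (fun i => σ.D i W z) z := by
  have hN0 : 0 ≤ ν.N z := by linarith [hz.N1]
  have hx0 : 0 ≤ xf ν sg z := add_nonneg hz.E0 (mul_nonneg hsg hN0)
  have hN1 : 1 ≤ ν.N z ^ 2 := one_le_pow₀ hz.N1
  have hC0 : 0 ≤ C₁ := by linarith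
  have hF : σ.F W z ≤ 2 * (C₁ * ν.N z ^ 2) := by
    have := el.up fun i => σ.D i W z
    calc σ.F W z ≤ 2 * ∑ i, σ.D i W z ^ 2 := this
      _ ≤ _ := by linarith [h.dW]
  set X := xf ν sg z with hX
  set M := ν.N z ^ 2 with hM
  have hM0 : 0 ≤ M := by linarith
  have a1 : 8 * |v z| + 45 * σ.F W z + 8 * |σ.Λ W z| ≤ 106 * (C₁ * M) := by
    have h1 := h.v
    have h2 := h.lW
    have h3 : 1 ≤ C₁ * M := by nlinarith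
    linarith
  have a2 : c₁ * X * (8 * |v z| + 45 * σ.F W z + 8 * |σ.Λ W z|) ≤ c₁ * X * (106 * (C₁ * M)) :=
    mul_le_mul_of_nonneg_left a1 (by positivity)
  have a3 : X ^ 2 ≤ X * (C₁ * M) := by
    rw [sq]
    refine mul_le_mul_of_nonneg_left ?_ hx0
    refine hz.x1.trans (mul_le_mul_of_nonneg_left ?_ hC0)
    rw [hM]; nlinarith [hz.N1]
  have a4 : 2 / (1 / 32) * (c₁ * X) ^ 2 ≤ 64 * (c₁ * (X * (C₁ * M))) := by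
    have e : 2 / (1 / 32 : ℝ) * (c₁ * X) ^ 2 = 64 * (c₁ ^ 2 * X ^ 2) := by ring
    rw [e]
    have h1 : c₁ ^ 2 ≤ c₁ := by nlinarith
    have : c₁ ^ 2 * X ^ 2 ≤ c₁ * (X * (C₁ * M)) :=
      mul_le_mul h1 a3 (sq_nonneg _) hc1.le
    linarith
  have a5 : cq * (X * M) ≤ qq q (fun i => σ.D i W z) z := h.qW
  have a6 : 1500 * (c₁ * C₁) * (X * M) ≤ cq * (X * M) :=
    mul_le_mul_of_nonneg_right hc (mul_nonneg hx0 hM0)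
  have a7 : 0 ≤ c₁ * C₁ * (X * M) := mul_nonneg (mul_nonneg hc1.le hC0) (mul_nonneg hx0 hM0)
  unfold Qz
  beta_reduce
  rw [← hX]
  nlinarith [a2, a4, a5, a6, a7]

theorem Gx_le (h : Ns σ v W q ν cq C₁ sg z) (hz : Nz m ν C₁ sg z) (ok : σ.Ok Ω θ) (el : El σ z)
    (hzΩ : z ∈ Ω) (hx : Sm Ω (xf ν sg)) (hC : 1 ≤ C₁) (hsg : 0 ≤ sg) (hc1 : 0 < c₁) :
    0 ≤ 2 * C₁ * c₁ * (xf ν sg z * ν.N z ^ 2) ∧
    σ.Γ (fun z => c₁ * xf ν sg z) (fun z => c₁ * xf ν sg z) z ≤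
      c₁ * xf ν sg z * (2 * C₁ * c₁ * (xf ν sg z * ν.N z ^ 2)) := by
  have hN0 : 0 ≤ ν.N z := by linarith [hz.N1]
  have hx0 : 0 ≤ xf ν sg z := add_nonneg hz.E0 (mul_nonneg hsg hN0)
  have hC0 : 0 ≤ C₁ := by linarith
  have hD : ∀ i, σ.D i (fun z => c₁ * xf ν sg z) z = c₁ * σ.D i (xf ν sg) z := by
    intro i
    have hU := ok.op
    have d := (hx.contDiffAt (hU.mem_nhds hzΩ)).differentiableAt (by simp)
    unfold Sl.D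
    have e : (fun z => c₁ * xf ν sg z) = c₁ • xf ν sg := by funext w; simp
    rw [e, fderiv_const_smul d]
    simp only [ContinuousLinearMap.coe_smul', Pi.smul_apply, smul_eq_mul]
    ring
  refine ⟨by positivity, ?_⟩
  have h1 := el.up fun i => σ.D i (fun z => c₁ * xf ν sg z) z
  have h2 : σ.Γ (fun z => c₁ * xf ν sg z) (fun z => c₁ * xf ν sg z) z =
      ∑ i, ∑ j, σ.s i j z * σ.D i (fun z => c₁ * xf ν sg z) z *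
        σ.D j (fun z => c₁ * xf ν sg z) z := rfl
  rw [h2]
  refine h1.trans ?_
  simp only [hD, mul_pow, ← Finset.mul_sum]
  have h3 := mul_le_mul_of_nonneg_left h.dx (sq_nonneg c₁)
  calc 2 * (c₁ ^ 2 * ∑ i, σ.D i (xf ν sg) z ^ 2) ≤ 2 * (c₁ ^ 2 * (C₁ * (xf ν sg z * ν.N z) ^ 2)) :=
        by linarith
    _ = _ := by ring

variable [MeasureSpace E] [FiniteDimensional ℝ E] [BorelSpace E]
  [(volume : Measure E).IsAddHaarMeasure]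

/-- **Zone z0 from numbers.** -/
theorem zone0N (ok : σ.Ok U θ) (ot : τ.Ok U θ) (hv₁ : Sm U v₁) (hv₂ : Sm U v₂) (hW : Sm U W)
    (hχ : Sm U χ) (hΩ : IsOpen Ω) (h : Ω ⊆ U) (hS : IsClosed S)
    (hSU : U ∩ S ⊆ Ω) (h0 : ∀ z ∈ U, z ∉ S → χ z = 0)
    (hc : ∀ i, Sm Ω (c i)) (hc' : ∀ i, Sm Ω (c' i))
    (hq : ∀ i j, Sm Ω (q i j)) (hy : ∀ i j z, q i j z = q j i z) (hq' : ∀ i j, Sm Ω (q' i j))
    (hy' : ∀ i j z, q' i j z = q' j i z) (hm : Sm Ω m)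
    (hκ : 0 < κ₀) (hη : 0 < η) (hη1 : η ≤ 1 / 200) (hηκ : η ≤ κ₀)
    (hK : 0 ≤ K) (hηK : 2 * K * η ≤ 1)
    (sm₁ : ∀ z ∈ Ω, SmQ σ W q m c v₁ η K z) (sm₂ : ∀ z ∈ Ω, SmQ τ W q' m c' v₂ η K z)
    (cert : ∀ z ∈ Ω, ∀ (A B : ι → ℝ) (x y : ℝ),
      4 * (qq q A z + qq q' B z) - η * (qq q (fun i => σ.D i W z) z * x ^ 2 +
        qq q' (fun i => τ.D i W z) z * y ^ 2) ≤
      8 * (Ch.TH σ τ W z A B + tc σ c W z A + tc τ c' W z B) + qf σ τ v₁ v₂ W z A B x y)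
    (el₁ : ∀ z ∈ Ω, El σ z) (el₂ : ∀ z ∈ Ω, El τ z)
    (hκ2 : κ₀ ≤ 1 / 2) (hC : 1 ≤ C₁) (hsg : 0 ≤ sg) (hc1 : 0 < c₁)
    (hcq : 1500 * (c₁ * C₁) ≤ cq) (hc2 : c₁ ≤ 1 / 4)
    (hE : Sm Ω ν.En) (hN : Sm Ω ν.N) (hKc : ContinuousOn ν.K Ω)
    (nz : ∀ z ∈ Ω, Nz m ν C₁ sg z) (n₁ : ∀ z ∈ Ω, Ns σ v₁ W q ν cq C₁ sg z)
    (n₂ : ∀ z ∈ Ω, Ns τ v₂ W q' ν cq C₁ sg z) {Z : E → ℝ} (hZ : ContinuousOn Z Ω)
    (hZ0 : ∀ z ∈ U, z ∉ S → Z z = 0) (hZ1 : ∀ z ∈ Ω, ∑ i, σ.D i χ z ^ 2 ≤ Z z)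
    (hZ2 : ∀ z ∈ Ω, ∑ i, τ.D i χ z ^ 2 ≤ Z z) :
    Zone σ τ U θ v₁ v₂ W χ ((Tab.M0 ν (c₁ / 3) sg).sm fun z => χ z ^ 2)
      (Tab.c0 ν (500 * C₁ ^ 2) sg Z η) := by
  have hx : Sm Ω (xf ν sg) := hE.add (contDiffOn_const.mul hN)
  have hC0 : 0 ≤ C₁ := by linarith
  have hN0 : ∀ z ∈ Ω, 0 ≤ ν.N z := fun z hz => by linarith [(nz z hz).N1]
  have hx0 : ∀ z ∈ Ω, 0 ≤ xf ν sg z := fun z hz =>
    add_nonneg (nz z hz).E0 (mul_nonneg hsg (hN0 z hz))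
  have ok' := Ok_mono ok hΩ h
  have ot' := Ok_mono ot hΩ h
  have hcq' : c₁ ≤ cq / 1500 := by nlinarith
  refine zone0T (s := fun z => c₁ * xf ν sg z)
    (r₁ := fun z => 2 * C₁ * c₁ * (xf ν sg z * ν.N z ^ 2))
    (r₂ := fun z => 2 * C₁ * c₁ * (xf ν sg z * ν.N z ^ 2)) (δ := 1 / 32) ok ot hv₁ hv₂ hW hχ hΩ h
    hS hSU h0 hc hc' hq hy hq' hy' hm hκ hη hη1 hηκ hK hηK sm₁ sm₂ cert el₁ el₂
    (contDiffOn_const.mul hx) (by norm_num) (by linarith) (fun z hz => ?_) (by positivity)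
    (by linarith) hC hE.continuousOn hN.continuousOn hKc hZ hZ0 fun z hz => ?_
  · have p := nz z hz
    exact ⟨mul_nonneg hc1.le (hx0 z hz),
      Qz_le (n₁ z hz) p (el₁ z hz) hC hsg hc1 hcq (by linarith),
      Qz_le (n₂ z hz) p (el₂ z hz) hC hsg hc1 hcq (by linarith),
      Gx_le (n₁ z hz) p ok' (el₁ z hz) hz hx hC hsg hc1,
      Gx_le (n₂ z hz) p ot' (el₂ z hz) hz hx hC hsg hc1⟩
  · have p := nz z hz
    have X0 := hx0 z hz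
    have m0 := (sm₁ z hz).m0
    have e : xf ν sg z = ν.En z + sg * ν.N z := rfl
    have M0 : 0 ≤ ν.N z ^ 2 := sq_nonneg _
    have XM : 0 ≤ xf ν sg z * ν.N z ^ 2 := mul_nonneg X0 M0
    have M1 : 1 ≤ ν.N z ^ 2 := one_le_pow₀ p.N1
    have F1 : 0 ≤ σ.F W z := H972.E.El.psd el₁ z hz _
    have F2 : 0 ≤ τ.F W z := H972.E.El.psd el₂ z hz _
    have w0 : c₁ / 3 * (xf ν sg z * ν.N z ^ 2) ≤ 1 / 6 * (cq * (xf ν sg z * ν.N z ^ 2)) := by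
      have : c₁ / 3 ≤ 1 / 6 * cq := by linarith
      nlinarith [mul_le_mul_of_nonneg_right this XM]
    refine ⟨p.E0, mul_nonneg hsg (hN0 z hz), ?_, ?_, ?_, p.m1, ?_, p.K0, (n₁ z hz).qU,
      (n₂ z hz).qU, ?_, ?_, hZ1 z hz, hZ2 z hz⟩
    · beta_reduce; rw [← e]; linarith
    · rw [← e]
      have := (n₁ z hz).qW
      have := mul_nonneg (mul_nonneg hc1.le X0) F1
      linarith
    · rw [← e]
      have := (n₂ z hz).qW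
      have := mul_nonneg (mul_nonneg hc1.le X0) F2
      linarith
    · rw [← e]
      nlinarith
    · have := (n₁ z hz).dW
      nlinarith
    · have := (n₂ z hz).dW
      nlinarith

end Vale.Agent.P088.R2.H808.Zq
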