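import Vale.Agent.P088.R2.H437.Z0.Spec
import Vale.Agent.P088.R2.H464.EP.SymU

/-!
# P088, stage 3, zone 0: the derivative bounds of the weight

`rowWD : RowWD`.
-/

open Set Filter
open scoped ContDiff Topology Matrix

noncomputable section

namespace Vale.Agent.P088.R2.H808.Z0

open Vale.Agent.P088.LR Vale.Agent.P088.HY
open Vale.Agent.P088.R2.H644.Sy Vale.Agent.P088.R2.H437.Z0
open Vale.Agent.P088.R2.H464.Cu (mid dif rq bf dg midL difL)

/-! ## General facts -/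

section gen

variable {α E F : Type*} [NormedAddCommGroup E] [NormedSpace ℝ E] [NormedAddCommGroup F]
  [NormedSpace ℝ F]

/-- The product rule with different sizes of the derivative of highest order. -/
theorem leib {U : Set E} (hU : IsOpen U) {f : E → ℝ} {h : E → F} (hf : ContDiffOn ℝ ∞ f U)
    (hh : ContDiffOn ℝ ∞ h U) {z : E} (hz : z ∈ U) {j : ℕ} {A N K B B' : ℝ} (hA : 0 ≤ A)
    (hN : 0 ≤ N) (hK : 0 ≤ K) (hB : 0 ≤ B) (hB' : 0 ≤ B') (h0 : |f z| ≤ A * N)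
    (h1 : ∀ i, 1 ≤ i → i ≤ j → ‖iteratedFDeriv ℝ i f z‖ ≤ A * K)
    (h2 : ∀ i < j, ‖iteratedFDeriv ℝ i h z‖ ≤ B) (h3 : ‖iteratedFDeriv ℝ j h z‖ ≤ B') :
    ‖iteratedFDeriv ℝ j (fun y => f y • h y) z‖ ≤ 2 ^ j * A * (N * B' + K * B) := by
  have key := norm_iteratedFDerivWithin_smul_le hf hh hU.uniqueDiffOn hz (n := j)
    (by exact_mod_cast le_top)
  rw [iteratedFDerivWithin_of_isOpen (𝕜 := ℝ) (f := fun y => f y • h y) j hU hz] at key
  refine key.trans ?_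
  have e : (2 : ℝ) ^ j * A * (N * B' + K * B) =
      ∑ i ∈ Finset.range (j + 1), (j.choose i : ℝ) * (A * (N * B' + K * B)) := by
    rw [← Finset.sum_mul, ← Nat.cast_sum, Nat.sum_range_choose]
    push_cast
    ring
  rw [e]
  refine Finset.sum_le_sum fun i hi => ?_
  have hi' : i ≤ j := Nat.lt_succ_iff.1 (Finset.mem_range.1 hi)
  rw [iteratedFDerivWithin_of_isOpen i hU hz, iteratedFDerivWithin_of_isOpen (j - i) hU hz,
    mul_assoc]
  refine mul_le_mul_of_nonneg_left ?_ (Nat.cast_nonneg _)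
  rcases Nat.eq_zero_or_pos i with rfl | hi0
  · have a1 : ‖iteratedFDeriv ℝ 0 f z‖ ≤ A * N := by simpa using h0
    calc ‖iteratedFDeriv ℝ 0 f z‖ * ‖iteratedFDeriv ℝ (j - 0) h z‖ ≤ A * N * B' := by
          rw [Nat.sub_zero]
          exact mul_le_mul a1 h3 (norm_nonneg _) (by positivity)
      _ ≤ A * (N * B' + K * B) := by
          have : 0 ≤ A * (K * B) := by positivity
          linarith [mul_assoc A N B']
  · have a1 := h1 i hi0 hi'
    have a2 := h2 (j - i) (by omega)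
    calc ‖iteratedFDeriv ℝ i f z‖ * ‖iteratedFDeriv ℝ (j - i) h z‖ ≤ A * K * B :=
          mul_le_mul a1 a2 (norm_nonneg _) (by positivity)
      _ ≤ A * (N * B' + K * B) := by
          have : 0 ≤ A * (N * B') := by positivity
          linarith [mul_assoc A K B]

/-- A uniform constant. -/
theorem Sf.unif {U : α → Set E} {ρ g : α → E → ℝ} {k : ℕ} {f : α → E → F} (h : Sf U ρ g k f)
    (hp : ∀ a, ∀ z ∈ U a, ∀ j, 0 ≤ g a z * (ρ a z)⁻¹ ^ j) : ∃ C, 0 ≤ C ∧ ∀ j ≤ k, ∀ a,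
    ∀ z ∈ U a, ‖iteratedFDeriv ℝ j (f a) z‖ ≤ C * (g a z * (ρ a z)⁻¹ ^ j) := by
  have h1 : ∀ i, ∃ C, i ≤ k → ∀ a, ∀ z ∈ U a,
      ‖iteratedFDeriv ℝ i (f a) z‖ ≤ C * (g a z * (ρ a z)⁻¹ ^ i) := by
    intro i
    by_cases hi : i ≤ k
    · obtain ⟨C, hC⟩ := h.bd i hi
      exact ⟨C, fun _ => hC⟩
    · exact ⟨0, fun h => absurd h hi⟩
  choose C hC using h1
  refine ⟨∑ i ∈ Finset.range (k + 1), |C i|, Finset.sum_nonneg fun _ _ => abs_nonneg _,
    fun j hj a z hz => (hC j hj a z hz).trans ?_⟩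
  refine mul_le_mul_of_nonneg_right ((le_abs_self _).trans ?_) (hp a z hz j)
  exact Finset.single_le_sum (f := fun i => |C i|) (fun _ _ => abs_nonneg _)
    (Finset.mem_range.2 (Nat.lt_succ_of_le hj))

/-- Compositions `H(u)` when only the derivative of `u` is bounded. -/
theorem compd {U : α → Set E} (hU : ∀ a, IsOpen (U a)) {u : α → E → ℝ}
    (hs : ∀ a, ContDiffOn ℝ ∞ (u a) (U a)) {γ : α → E → ℝ} {k : ℕ}
    (hd : Sf U (fun _ _ => 1) (fun _ _ => 1) k (fun a => fderiv ℝ (u a))) :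
    ∀ j ≤ k + 1, ∀ H : α → ℝ → ℝ, (∀ a, ContDiff ℝ ∞ (H a)) →
    (∀ i ≤ j, ∃ C, ∀ a, ∀ z ∈ U a, |iteratedDeriv i (H a) (u a z)| ≤ C * γ a z) →
    Sf U (fun _ _ => 1) γ j fun a z => H a (u a z) := by
  intro j
  induction j with
  | zero =>
    intro _ H hH hb
    obtain ⟨C, hC⟩ := hb 0 le_rfl
    refine ⟨fun a => (hH a).comp_contDiffOn (hs a), fun i hi => ?_⟩
    obtain rfl : i = 0 := Nat.le_zero.1 hi
    exact ⟨C, fun a z hz => by simpa using hC a z hz⟩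
  | succ j ih =>
    intro hj H hH hb
    have h0 : ∃ C, ∀ a, ∀ z ∈ U a, ‖H a (u a z)‖ ≤ C * γ a z := by
      obtain ⟨C, hC⟩ := hb 0 (Nat.zero_le _)
      exact ⟨C, fun a z hz => by simpa using hC a z hz⟩
    have h1 := ih (by omega) (fun a => deriv (H a)) (fun a => (contDiff_infty_iff_deriv.1 (hH a)).2)
      (fun i hi => by
        obtain ⟨C, hC⟩ := hb (i + 1) (by omega)
        exact ⟨C, fun a z hz => by
          have := hC a z hz
          rwa [iteratedDeriv_succ'] at this⟩)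
    have h2 := h1.smul hU (hd.mono_k (l := j) (by omega))
    refine Sf.succ (fun a => (hH a).comp_contDiffOn (hs a)) h0 ?_
    refine (h2.congr hU fun a z hz => ?_).wcongr fun a z _ => by simp
    have d1 : HasDerivAt (H a) (deriv (H a) (u a z)) (u a z) :=
      ((hH a).differentiable (by simp) _).hasDerivAt
    have d2 : DifferentiableAt ℝ (u a) z :=
      ((hs a z hz).contDiffAt ((hU a).mem_nhds hz)).differentiableAt (by simp)
    exact (d1.comp_hasFDerivAt z d2.hasFDerivAt).fderiv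

end gen

/-! ## Directional derivatives -/

section dir

variable {n : ℕ} {U : Set (VV n)} {f : VV n → ℝ} {z : VV n}

theorem sm_dv (hU : IsOpen U) (hf : ContDiffOn ℝ ∞ f U) (w : VV n) :
    ContDiffOn ℝ ∞ (dv w f) U :=
  (hf.fderiv_of_isOpen hU (by norm_num)).clm_apply contDiffOn_const

/-- The jets of a directional derivative. -/
theorem jet_dv (hU : IsOpen U) (hf : ContDiffOn ℝ ∞ f U) (w : VV n) (hz : z ∈ U) (j : ℕ) :
    ‖iteratedFDeriv ℝ j (dv w f) z‖ ≤ ‖w‖ * ‖iteratedFDeriv ℝ j (fderiv ℝ f) z‖ := by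
  have h1 : ContDiffOn ℝ ∞ (fderiv ℝ f) U := hf.fderiv_of_isOpen hU (by norm_num)
  have s1 : ContDiffAt ℝ (j : ℕ∞ω) (fderiv ℝ f) z :=
    ((h1 z hz).contDiffAt (hU.mem_nhds hz)).of_le (by exact_mod_cast le_top)
  have e : ‖iteratedFDeriv ℝ j (ContinuousLinearMap.apply ℝ ℝ w ∘ fderiv ℝ f) z‖ ≤
      ‖ContinuousLinearMap.apply ℝ ℝ w‖ * ‖iteratedFDeriv ℝ j (fderiv ℝ f) z‖ :=
    (ContinuousLinearMap.apply ℝ ℝ w).norm_iteratedFDeriv_comp_left s1 le_rfl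
  refine e.trans (mul_le_mul_of_nonneg_right ?_ (norm_nonneg _))
  refine ContinuousLinearMap.opNorm_le_bound _ (norm_nonneg w) fun L => ?_
  rw [ContinuousLinearMap.apply_apply, mul_comm]
  exact L.le_opNorm w

theorem jet_dv' (hU : IsOpen U) (hf : ContDiffOn ℝ ∞ f U) (w : VV n) (hz : z ∈ U) (j : ℕ) :
    ‖iteratedFDeriv ℝ j (dv w f) z‖ ≤ ‖w‖ * ‖iteratedFDeriv ℝ (j + 1) f z‖ := by
  have := jet_dv hU hf w hz j
  rwa [norm_iteratedFDeriv_fderiv] at this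

theorem abs_dv (w : VV n) : |dv w f z| ≤ ‖fderiv ℝ f z‖ * ‖w‖ := (fderiv ℝ f z).le_opNorm w

/-- Directional derivatives commute. -/
theorem dv_comm (hU : IsOpen U) (hf : ContDiffOn ℝ ∞ f U) (v w : VV n) (hz : z ∈ U) :
    dv v (dv w f) z = dv w (dv v f) z := by
  have h1 : ContDiffOn ℝ ∞ (fderiv ℝ f) U := hf.fderiv_of_isOpen hU (by norm_num)
  have h2 : DifferentiableAt ℝ (fderiv ℝ f) z :=
    ((h1 z hz).contDiffAt (hU.mem_nhds hz)).differentiableAt (by simp)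
  have e : ∀ v w : VV n, dv v (dv w f) z = fderiv ℝ (fderiv ℝ f) z v w := fun v w => by
    have h3 := h2.hasFDerivAt.clm_apply (hasFDerivAt_const w z)
    show fderiv ℝ (fun y => fderiv ℝ f y w) z v = _
    rw [h3.fderiv]
    simp
  have hs : IsSymmSndFDerivAt ℝ f z :=
    ((hf z hz).contDiffAt (hU.mem_nhds hz)).isSymmSndFDerivAt (by
      rw [minSmoothness_of_isRCLikeNormedField]
      exact WithTop.coe_le_coe.2 (le_top : (2 : ℕ∞) ≤ ⊤))
  rw [e, e]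
  exact hs v w

theorem dv_congr {f' : VV n → ℝ} (hU : IsOpen U) (h : ∀ y ∈ U, f y = f' y) (w : VV n)
    (hz : z ∈ U) : dv w f z = dv w f' z := by
  have h1 : f =ᶠ[𝓝 z] f' := by
    filter_upwards [hU.mem_nhds hz] with y hy using h y hy
  show fderiv ℝ f z w = fderiv ℝ f' z w
  rw [h1.fderiv_eq]

/-- Sums. -/
theorem dv_add {f' : VV n → ℝ} (hU : IsOpen U) (hf : ContDiffOn ℝ ∞ f U)
    (hf' : ContDiffOn ℝ ∞ f' U) (w : VV n) (hz : z ∈ U) :
    dv w (fun y => f y + f' y) z = dv w f z + dv w f' z := by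
  have d1 : DifferentiableAt ℝ f z :=
    ((hf z hz).contDiffAt (hU.mem_nhds hz)).differentiableAt (by simp)
  have d2 : DifferentiableAt ℝ f' z :=
    ((hf' z hz).contDiffAt (hU.mem_nhds hz)).differentiableAt (by simp)
  show fderiv ℝ (fun y => f y + f' y) z w = _
  rw [fderiv_fun_add d1 d2]
  rfl

end dir

/-! ## The family -/

/-- All data with the constant `Λ`. -/
structure Fm (n : ℕ) (Λ : ℝ) where
  R : ℝ
  l : V n → ℝ
  g : MF n
  Φ : ℝ → ℝ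
  S : ℝ → ℝ
  O : Set (V n)
  Ω : Set (VV n)
  h : Dt Λ R l g Φ S O Ω

section fam

variable {n : ℕ} {Λ : ℝ}

theorem Fm.R0 (a : Fm n Λ) : 0 < a.R := zero_lt_one.trans_le a.h.R1

theorem f_l : Sf (fun a : Fm n Λ => a.O) (fun a _ => a.R) (fun _ _ => 1) 4
    (fun a => fderiv ℝ a.l) :=
  ⟨fun a => a.h.sl.fderiv_of_isOpen a.h.oO (by norm_num), fun j hj => ⟨Λ, fun a x hx => by
    rw [norm_iteratedFDeriv_fderiv]
    simpa using a.h.jl x hx (j + 1) (by omega) (by omega)⟩⟩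

theorem f_g (i j : Fin n) : Sf (fun a : Fm n Λ => a.O) (fun a _ => a.R) (fun _ _ => 1) 5
    (fun a x => a.g x i j) :=
  ⟨fun a => a.h.sg i j, fun m hm => ⟨Λ, fun a x hx => by
    simpa using a.h.jg x hx i j m hm⟩⟩

theorem f_du : Sf (fun a : Fm n Λ => a.Ω) (fun a _ => a.R) (fun _ _ => 1) 4
    (fun a => fderiv ℝ (uf a.l)) :=
  R2.H464.Cu.sf_duf (fun a => a.h.oO) (fun a => a.h.oΩ) (fun a z hz => (a.h.pt z hz).1)
    (fun a z hz => (a.h.pt z hz).2.1) (fun a => a.R0) (fun a => a.h.sl) f_l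

theorem f_du1 : Sf (fun a : Fm n Λ => a.Ω) (fun _ _ => 1) (fun _ _ => 1) 4
    (fun a => fderiv ℝ (uf a.l)) :=
  f_du.mono_ρ (fun a _ _ => a.R0) (fun _ _ _ => one_pos) (fun _ _ _ => zero_le_one) (A := 1)
    fun a _ _ => by rw [one_mul]; exact a.h.R1

theorem s_u (a : Fm n Λ) : ContDiffOn ℝ ∞ (uf a.l) a.Ω :=
  (R2.H464.Cu.sm_uf a.h.sl).mono fun z hz => ⟨(a.h.pt z hz).1, (a.h.pt z hz).2.1⟩

theorem f_eu : Sf (fun a : Fm n Λ => a.Ω) (fun _ _ => 1) (fun a z => Real.exp (uf a.l z)) 5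
    (fun a z => Real.exp (uf a.l z)) :=
  Sf.exp (fun a => a.h.oΩ) s_u (f_du1.wcongr fun a z _ => by simp)

theorem f_rq : Sf (fun a : Fm n Λ => a.Ω) (fun _ _ => 1) (fun _ _ => 1) 5
    (fun a => rq a.g) :=
  (R2.H464.Cu.sf_rq_r (fun a => a.h.oO) (fun a => a.h.oΩ) (fun a z hz => (a.h.pt z hz).2.2)
    (fun a => a.R0) f_g (r := fun _ _ => 1) (fun _ _ _ => one_pos) (A := 1)
    (fun a z hz i => by
      rw [mul_one]
      exact (norm_le_pi_norm (dif z) i).trans (a.h.nq z hz))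
    (fun a _ _ => by rw [one_mul]; exact a.h.R1)).wcongr fun a z _ => by simp

theorem f_S : Sf (fun a : Fm n Λ => a.Ω) (fun _ _ => 1) (fun _ _ => 1) 5
    (fun a z => a.S (rq a.g z)) :=
  Sf.comp1 (I := fun _ => univ) (fun a => a.h.oΩ) (fun _ _ _ => one_ne_zero)
    (fun _ => isOpen_univ) (fun _ _ _ => mem_univ _) 5 (fun a => a.S) (fun _ _ => 1)
    (fun a => a.h.sS.contDiffOn) (fun j hj => ⟨Λ, fun a z hz => by
      simpa using a.h.dS z hz j hj⟩) f_rq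

theorem f_S' : Sf (fun a : Fm n Λ => a.Ω) (fun _ _ => 1) (fun _ _ => 1) 4
    (fun a z => deriv a.S (rq a.g z)) :=
  Sf.comp1 (I := fun _ => univ) (fun a => a.h.oΩ) (fun _ _ _ => one_ne_zero)
    (fun _ => isOpen_univ) (fun _ _ _ => mem_univ _) 4 (fun a => deriv a.S) (fun _ _ => 1)
    (fun a => (contDiff_infty_iff_deriv.1 a.h.sS).2.contDiffOn) (fun j hj => ⟨Λ, fun a z hz => by
      have := a.h.dS z hz (j + 1) (by omega)
      rw [iteratedDeriv_succ'] at this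
      simpa using this⟩) (f_rq.mono_k (by norm_num))

/-- The stiff part. -/
def Gf (l : V n → ℝ) (g : MF n) (S : ℝ → ℝ) (z : VV n) : ℝ := Real.exp (uf l z) * S (rq g z)

theorem f_G : Sf (fun a : Fm n Λ => a.Ω) (fun _ _ => 1) (fun a z => Real.exp (uf a.l z)) 5
    (fun a => Gf a.l a.g a.S) :=
  (f_eu.mul (fun a => a.h.oΩ) f_S).wcongr fun a z _ => by simp

/-- `N`, `K` at a point. -/
def Nn (a : Fm n Λ) (z : VV n) : ℝ := deriv a.Φ (uf a.l z)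

def Kk (a : Fm n Λ) (z : VV n) : ℝ := deriv (deriv a.Φ) (uf a.l z)

theorem sΦ1 (a : Fm n Λ) : ContDiff ℝ ∞ (deriv a.Φ) := (contDiff_infty_iff_deriv.1 a.h.sΦ).2

theorem sΦ2 (a : Fm n Λ) : ContDiff ℝ ∞ (deriv (deriv a.Φ)) :=
  (contDiff_infty_iff_deriv.1 (sΦ1 a)).2

theorem f_K : Sf (fun a : Fm n Λ => a.Ω) (fun _ _ => 1) Kk 3 Kk := by
  refine compd (fun a => a.h.oΩ) s_u f_du1 3 (by norm_num) (fun a => deriv (deriv a.Φ)) sΦ2
    fun i hi => ⟨Λ, fun a z hz => ?_⟩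
  have := a.h.dΦ z hz i hi
  rw [iteratedDeriv_succ', iteratedDeriv_succ'] at this
  exact this

theorem s_N (a : Fm n Λ) : ContDiffOn ℝ ∞ (Nn a) a.Ω := (sΦ1 a).comp_contDiffOn (s_u a)

theorem fd_N (a : Fm n Λ) {z : VV n} (hz : z ∈ a.Ω) :
    fderiv ℝ (Nn a) z = Kk a z • fderiv ℝ (uf a.l) z := by
  have d1 : HasDerivAt (deriv a.Φ) (deriv (deriv a.Φ) (uf a.l z)) (uf a.l z) :=
    ((sΦ1 a).differentiable (by simp) _).hasDerivAt
  have d2 : DifferentiableAt ℝ (uf a.l) z :=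
    ((s_u a z hz).contDiffAt (a.h.oΩ.mem_nhds hz)).differentiableAt (by simp)
  exact (d1.comp_hasFDerivAt z d2.hasFDerivAt).fderiv

theorem f_dN : Sf (fun a : Fm n Λ => a.Ω) (fun _ _ => 1) Kk 3 (fun a => fderiv ℝ (Nn a)) :=
  ((f_K.smul (fun a => a.h.oΩ) (f_du1.mono_k (by norm_num))).congr (fun a => a.h.oΩ)
    fun a z hz => fd_N a hz).wcongr fun a z _ => by simp

/-! ## The special direction -/

theorem om_nn (l : V n → ℝ) {R : ℝ} (hR : 0 < R) (z v : VV n) : 0 ≤ om l R z v := by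
  unfold om
  positivity

theorem om_u (l : V n → ℝ) {R : ℝ} (hR : 0 < R) (z v : VV n) :
    |dv v (uf l) z| ≤ om l R z v := by
  unfold om
  have : 0 ≤ ‖v.1 - v.2‖ := norm_nonneg _
  have : 0 ≤ ‖v‖ / R := by positivity
  linarith

theorem om_d (l : V n → ℝ) {R : ℝ} (hR : 0 < R) (z v : VV n) : ‖v.1 - v.2‖ ≤ om l R z v := by
  unfold om
  have : 0 ≤ |dv v (uf l) z| := abs_nonneg _
  have : 0 ≤ ‖v‖ / R := by positivity
  linarith

theorem om_R (l : V n → ℝ) {R : ℝ} (hR : 0 < R) (z v : VV n) : ‖v‖ / R ≤ om l R z v := by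
  unfold om
  have : 0 ≤ |dv v (uf l) z| := abs_nonneg _
  have : 0 ≤ ‖v.1 - v.2‖ := norm_nonneg _
  linarith

/-- The jets of `D_w u` at the scale `R`. -/
theorem j_dwu : ∃ C, 0 ≤ C ∧ ∀ j ≤ 4, ∀ (a : Fm n Λ) (w : VV n), ∀ z ∈ a.Ω,
    ‖iteratedFDeriv ℝ j (dv w (uf a.l)) z‖ ≤ C * (a.R⁻¹ ^ j * ‖w‖) := by
  obtain ⟨C, hC, h⟩ := Sf.unif (f_du (n := n) (Λ := Λ)) fun a z _ j => by
    have := a.R0
    positivity
  refine ⟨C, hC, fun j hj a w z hz => ?_⟩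
  have h1 := jet_dv a.h.oΩ (s_u a) w hz j
  have h2 := h j hj a z hz
  calc _ ≤ ‖w‖ * ‖iteratedFDeriv ℝ j (fderiv ℝ (uf a.l)) z‖ := h1
    _ ≤ ‖w‖ * (C * (1 * a.R⁻¹ ^ j)) := mul_le_mul_of_nonneg_left h2 (norm_nonneg w)
    _ = _ := by ring

/-- The pairs of data and directions. -/
theorem f_dwu : Sf (fun a : Fm n Λ × VV n => a.1.Ω) (fun _ _ => 1)
    (fun a z => om a.1.l a.1.R z a.2) 4 (fun a => dv a.2 (uf a.1.l)) := by
  obtain ⟨C, hC, h⟩ := j_dwu (n := n) (Λ := Λ)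
  refine ⟨fun a => sm_dv a.1.h.oΩ (s_u a.1) a.2, fun j hj => ?_⟩
  rcases Nat.eq_zero_or_pos j with rfl | hj0
  · exact ⟨1, fun a z hz => by simpa using om_u a.1.l a.1.R0 z a.2⟩
  · refine ⟨C, fun a z hz => ?_⟩
    have h1 := h j hj a.1 a.2 z hz
    have hR := a.1.R0
    have h2 : a.1.R⁻¹ ^ j * ‖a.2‖ ≤ ‖a.2‖ / a.1.R := by
      have h3 : a.1.R⁻¹ ^ j ≤ a.1.R⁻¹ ^ 1 :=
        pow_le_pow_of_le_one (inv_nonneg.2 hR.le) (inv_le_one_of_one_le₀ a.1.h.R1) hj0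
      calc a.1.R⁻¹ ^ j * ‖a.2‖ ≤ a.1.R⁻¹ ^ 1 * ‖a.2‖ :=
            mul_le_mul_of_nonneg_right h3 (norm_nonneg _)
        _ = _ := by rw [pow_one, div_eq_mul_inv, mul_comm]
    refine h1.trans ?_
    simp only [inv_one, one_pow, mul_one]
    exact mul_le_mul_of_nonneg_left (h2.trans (om_R a.1.l hR z a.2)) hC

/-- `D_w ρ`. -/
theorem f_dwr : Sf (fun a : Fm n Λ × VV n => a.1.Ω) (fun _ _ => 1)
    (fun a z => om a.1.l a.1.R z a.2) 4 (fun a => dv a.2 (rq a.1.g)) := by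
  have hU : ∀ a : Fm n Λ × VV n, IsOpen a.1.Ω := fun a => a.1.h.oΩ
  have hg : ∀ i j : Fin n, Sf (fun a : Fm n Λ × VV n => a.1.O) (fun a _ => a.1.R)
      (fun _ _ => 1) 5 (fun a x => a.1.g x i j) := fun i j =>
    (f_g i j).sub_fam (fun a : Fm n Λ × VV n => a.1) (fun a => subset_rfl)
  have hgm : ∀ i j : Fin n, Sf (fun a : Fm n Λ × VV n => a.1.Ω) (fun _ _ => 1)
      (fun _ _ => 1) 5 fun a z => a.1.g (mid z) i j := fun i j =>
    R2.H464.Cu.sf_gm (fun a => a.1.h.oO) (fun a z hz => (a.1.h.pt z hz).2.2) (fun a => a.1.R0)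
      (hg i j) (fun _ _ _ => one_pos) (A := 1) fun a _ _ => by rw [one_mul]; exact a.1.h.R1
  have hd : ∀ i : Fin n, Sf (fun a : Fm n Λ × VV n => a.1.Ω) (fun _ _ => 1)
      (fun _ _ => 1) 5 fun _ z => dif z i := fun i =>
    Sf.lin (difL i) (fun _ _ _ => one_pos) (A := 1) fun a z hz => by
      rw [mul_one]
      exact (norm_le_pi_norm (dif z) i).trans (a.1.h.nq z hz)
  have hw : ∀ i : Fin n, Sf (fun a : Fm n Λ × VV n => a.1.Ω) (fun _ _ => 1)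
      (fun a z => om a.1.l a.1.R z a.2) 4 fun a _ => dif a.2 i := fun i =>
    Sf.const _ _ _ _ _ ⟨1, fun a z _ => by
      rw [one_mul]
      exact (norm_le_pi_norm (dif a.2) i).trans (om_d a.1.l a.1.R0 z a.2)⟩
  have hdg : ∀ i j : Fin n, Sf (fun a : Fm n Λ × VV n => a.1.Ω) (fun _ _ => 1)
      (fun a z => om a.1.l a.1.R z a.2) 4 fun a z => dg (mid a.2) a.1.g (mid z) i j := by
    intro i j
    have h1 : Sf (fun a : Fm n Λ × VV n => a.1.Ω) (fun a _ => a.1.R)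
        (fun a _ => 1 * a.1.R⁻¹) 4 fun a z => fderiv ℝ (fun x => a.1.g x i j) (mid z) :=
      Sf.compL (fun a => a.1.h.oO) ((hg i j).fd fun a => a.1.h.oO) (midL n)
        (fun a z hz => (a.1.h.pt z hz).2.2) (fun a _ _ => a.1.R0.le)
        (fun a _ _ => by have := a.1.R0; positivity)
    refine ⟨fun a => (h1.sm a).clm_apply contDiffOn_const, fun m hm => ?_⟩
    obtain ⟨C, hC⟩ := h1.bd m hm
    refine ⟨|C|, fun a z hz => ?_⟩
    have hR := a.1.R0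
    have s1 : ContDiffAt ℝ (m : ℕ∞ω) (fun z => fderiv ℝ (fun x => a.1.g x i j) (mid z)) z :=
      ((h1.sm a z hz).contDiffAt ((hU a).mem_nhds hz)).of_le (by exact_mod_cast le_top)
    have e : ‖iteratedFDeriv ℝ m (ContinuousLinearMap.apply ℝ ℝ (mid a.2) ∘
        fun z => fderiv ℝ (fun x => a.1.g x i j) (mid z)) z‖ ≤
        ‖ContinuousLinearMap.apply ℝ ℝ (mid a.2)‖ *
          ‖iteratedFDeriv ℝ m (fun z => fderiv ℝ (fun x => a.1.g x i j) (mid z)) z‖ :=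
      (ContinuousLinearMap.apply ℝ ℝ (mid a.2)).norm_iteratedFDeriv_comp_left s1 le_rfl
    have e1 : ‖ContinuousLinearMap.apply ℝ ℝ (mid a.2)‖ ≤ ‖a.2‖ := by
      refine ContinuousLinearMap.opNorm_le_bound _ (norm_nonneg _) fun L => ?_
      rw [ContinuousLinearMap.apply_apply, mul_comm]
      refine (L.le_opNorm _).trans (mul_le_mul_of_nonneg_left ?_ (norm_nonneg _))
      unfold Vale.Agent.P088.R2.H464.Cu.mid
      rw [norm_smul]
      have h2 : ‖a.2.1 + a.2.2‖ ≤ ‖a.2‖ + ‖a.2‖ :=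
        (norm_add_le _ _).trans (add_le_add (norm_fst_le _) (norm_snd_le _))
      have h3 : ‖(1 / 2 : ℝ)‖ = 1 / 2 := by norm_num
      rw [h3]
      linarith
    have h4 := hC a z hz
    have h5 : a.1.R⁻¹ ^ m ≤ 1 :=
      pow_le_one₀ (inv_nonneg.2 hR.le) (inv_le_one_of_one_le₀ a.1.h.R1)
    have h6 : ‖iteratedFDeriv ℝ m (fun z => fderiv ℝ (fun x => a.1.g x i j) (mid z)) z‖ ≤
        |C| * a.1.R⁻¹ := by
      calc _ ≤ C * (1 * a.1.R⁻¹ * a.1.R⁻¹ ^ m) := h4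
        _ ≤ |C| * (1 * a.1.R⁻¹ * a.1.R⁻¹ ^ m) :=
            mul_le_mul_of_nonneg_right (le_abs_self C) (by positivity)
        _ ≤ |C| * (1 * a.1.R⁻¹ * 1) := by gcongr
        _ = |C| * a.1.R⁻¹ := by ring
    refine e.trans ?_
    simp only [inv_one, one_pow, mul_one]
    calc _ ≤ ‖a.2‖ * (|C| * a.1.R⁻¹) := mul_le_mul e1 h6 (norm_nonneg _) (norm_nonneg _)
      _ = |C| * (‖a.2‖ / a.1.R) := by rw [div_eq_mul_inv]; ring
      _ ≤ |C| * om a.1.l a.1.R z a.2 :=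
          mul_le_mul_of_nonneg_left (om_R a.1.l hR z a.2) (abs_nonneg C)
  have t1 := Sf.sum hU Finset.univ fun i _ => Sf.sum hU Finset.univ fun j _ =>
    (((hgm i j).mono_k (by norm_num : 4 ≤ 5)).mul hU (hw i)).mul hU
      ((hd j).mono_k (by norm_num : 4 ≤ 5))
  have t3 := Sf.sum hU Finset.univ fun i _ => Sf.sum hU Finset.univ fun j _ =>
    (((hgm i j).mono_k (by norm_num : 4 ≤ 5)).mul hU ((hd i).mono_k (by norm_num : 4 ≤ 5))).mul hU
      (hw j)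
  have t2 := Sf.sum hU Finset.univ fun i _ => Sf.sum hU Finset.univ fun j _ =>
    ((hdg i j).mul hU ((hd i).mono_k (by norm_num : 4 ≤ 5))).mul hU
      ((hd j).mono_k (by norm_num : 4 ≤ 5))
  have t1' := t1.wcongr (g₁ := fun a z => om a.1.l a.1.R z a.2) fun a z _ => by simp
  have t2' := t2.wcongr (g₁ := fun a z => om a.1.l a.1.R z a.2) fun a z _ => by simp
  have t3' := t3.wcongr (g₁ := fun a z => om a.1.l a.1.R z a.2) fun a z _ => by simp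
  refine ((((t2'.add hU t1').add hU t3').csmul hU (1 / 2 : ℝ))).congr hU fun a z hz => ?_
  have hm := (a.1.h.pt z hz).2.2
  have hdf : ∀ i j, DifferentiableAt ℝ (fun x => a.1.g x i j) (mid z) := fun i j =>
    ((a.1.h.sg i j _ hm).contDiffAt (a.1.h.oO.mem_nhds hm)).differentiableAt (by simp)
  have e1 := ((R2.H464.Cu.Hv.bf (w := a.2) (z := z) (α := dif) (β := dif) hdf
    (R2.H464.Cu.Hv.dif a.2 z) (R2.H464.Cu.Hv.dif a.2 z)).cmul (1 / 2)).e
  exact e1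

theorem s_rq (a : Fm n Λ) : ContDiffOn ℝ ∞ (rq a.g) a.Ω := f_rq.sm a

/-- `D_w G`. -/
theorem dv_G (a : Fm n Λ) (w : VV n) {z : VV n} (hz : z ∈ a.Ω) :
    dv w (Gf a.l a.g a.S) z = Gf a.l a.g a.S z * dv w (uf a.l) z +
      Real.exp (uf a.l z) * deriv a.S (rq a.g z) * dv w (rq a.g) z := by
  have d1 : DifferentiableAt ℝ (uf a.l) z :=
    ((s_u a z hz).contDiffAt (a.h.oΩ.mem_nhds hz)).differentiableAt (by simp)
  have d2 : DifferentiableAt ℝ (rq a.g) z :=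
    ((s_rq a z hz).contDiffAt (a.h.oΩ.mem_nhds hz)).differentiableAt (by simp)
  have d3 : HasDerivAt a.S (deriv a.S (rq a.g z)) (rq a.g z) :=
    (a.h.sS.differentiable (by simp) _).hasDerivAt
  have h := d1.hasFDerivAt.exp.mul (d3.comp_hasFDerivAt z d2.hasFDerivAt)
  have e : fderiv ℝ (Gf a.l a.g a.S) z = _ := h.fderiv
  show fderiv ℝ (Gf a.l a.g a.S) z w = _
  rw [e]
  simp only [_root_.add_apply, _root_.smul_apply, smul_eq_mul, Function.comp_apply]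
  unfold Gf
  show _ = Real.exp (uf a.l z) * a.S (rq a.g z) * fderiv ℝ (uf a.l) z w +
    Real.exp (uf a.l z) * deriv a.S (rq a.g z) * fderiv ℝ (rq a.g) z w
  ring

theorem f_dwG : Sf (fun a : Fm n Λ × VV n => a.1.Ω) (fun _ _ => 1)
    (fun a z => Real.exp (uf a.1.l z) * om a.1.l a.1.R z a.2) 4
    (fun a => dv a.2 (Gf a.1.l a.1.g a.1.S)) := by
  have hU : ∀ a : Fm n Λ × VV n, IsOpen a.1.Ω := fun a => a.1.h.oΩ
  have h1 := ((f_G (n := n) (Λ := Λ)).sub_fam (fun a : Fm n Λ × VV n => a.1)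
    (U' := fun a => a.1.Ω) (fun a => subset_rfl)).mono_k (by norm_num : 4 ≤ 5)
  have h2 := ((f_eu (n := n) (Λ := Λ)).sub_fam (fun a : Fm n Λ × VV n => a.1)
    (U' := fun a => a.1.Ω) (fun a => subset_rfl)).mono_k (by norm_num : 4 ≤ 5)
  have h3 := (f_S' (n := n) (Λ := Λ)).sub_fam (fun a : Fm n Λ × VV n => a.1)
    (U' := fun a => a.1.Ω) (fun a => subset_rfl)
  have t1 := h1.mul hU f_dwu
  have t2 := ((h2.mul hU h3).mul hU f_dwr).wcongr
    (g₁ := fun a z => Real.exp (uf a.1.l z) * om a.1.l a.1.R z a.2) fun a z _ => by simp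
  exact (t1.add hU t2).congr hU fun a z hz => dv_G a.1 a.2 hz

/-! ## The weight -/

theorem s_G (a : Fm n Λ) : ContDiffOn ℝ ∞ (Gf a.l a.g a.S) a.Ω := f_G.sm a

theorem s_P (a : Fm n Λ) : ContDiffOn ℝ ∞ (fun z => a.Φ (uf a.l z)) a.Ω :=
  a.h.sΦ.comp_contDiffOn (s_u a)

theorem s_W (a : Fm n Λ) : ContDiffOn ℝ ∞ (W0 a.l a.g a.Φ a.S) a.Ω := (s_P a).add (s_G a)

theorem fd_W (a : Fm n Λ) {z : VV n} (hz : z ∈ a.Ω) : fderiv ℝ (W0 a.l a.g a.Φ a.S) z =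
    Nn a z • fderiv ℝ (uf a.l) z + fderiv ℝ (Gf a.l a.g a.S) z := by
  have d1 : DifferentiableAt ℝ (uf a.l) z :=
    ((s_u a z hz).contDiffAt (a.h.oΩ.mem_nhds hz)).differentiableAt (by simp)
  have d2 : DifferentiableAt ℝ (Gf a.l a.g a.S) z :=
    ((s_G a z hz).contDiffAt (a.h.oΩ.mem_nhds hz)).differentiableAt (by simp)
  have d3 : HasDerivAt a.Φ (deriv a.Φ (uf a.l z)) (uf a.l z) :=
    (a.h.sΦ.differentiable (by simp) _).hasDerivAt
  exact ((d3.comp_hasFDerivAt z d1.hasFDerivAt).add d2.hasFDerivAt).fderiv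

/-- Sums of jets. -/
theorem jet_add {E F : Type*} [NormedAddCommGroup E] [NormedSpace ℝ E] [NormedAddCommGroup F]
    [NormedSpace ℝ F] {U : Set E} (hU : IsOpen U) {f f' h : E → F} (hf : ContDiffOn ℝ ∞ f U)
    (hf' : ContDiffOn ℝ ∞ f' U) {z : E} (hz : z ∈ U) (e : ∀ y ∈ U, h y = f y + f' y) (j : ℕ) :
    ‖iteratedFDeriv ℝ j h z‖ ≤ ‖iteratedFDeriv ℝ j f z‖ + ‖iteratedFDeriv ℝ j f' z‖ := by
  have h1 : h =ᶠ[𝓝 z] fun y => f y + f' y := by
    filter_upwards [hU.mem_nhds hz] with y hy using e y hy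
  rw [(h1.iteratedFDeriv ℝ j).eq_of_nhds]
  have s1 : ContDiffAt ℝ (j : ℕ∞ω) f z :=
    ((hf z hz).contDiffAt (hU.mem_nhds hz)).of_le (by exact_mod_cast le_top)
  have s2 : ContDiffAt ℝ (j : ℕ∞ω) f' z :=
    ((hf' z hz).contDiffAt (hU.mem_nhds hz)).of_le (by exact_mod_cast le_top)
  have e2 := iteratedFDeriv_add_apply s1 s2
  have e3 : iteratedFDeriv ℝ j (fun z => f z + f' z) z = iteratedFDeriv ℝ j (f + f') z := rfl
  rw [e3, e2]
  exact norm_add_le _ _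

/-- The jets of `DW`. -/
theorem j_dW : ∃ C, 0 ≤ C ∧ ∀ j ≤ 3, ∀ a : Fm n Λ, ∀ z ∈ a.Ω,
    ‖iteratedFDeriv ℝ j (fderiv ℝ (W0 a.l a.g a.Φ a.S)) z‖ ≤
      C * (Nn a z * a.R⁻¹ ^ j + (if j = 0 then 0 else Kk a z) + Real.exp (uf a.l z)) := by
  obtain ⟨C₁, hC₁, h₁⟩ := Sf.unif (f_du (n := n) (Λ := Λ)) fun a z _ j => by
    have := a.R0
    positivity
  obtain ⟨C₂, hC₂, h₂⟩ := Sf.unif (f_dN (n := n) (Λ := Λ)) fun a z hz j => by
    have := (a.h.K0 z hz).le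
    unfold Kk
    positivity
  obtain ⟨C₃, hC₃, h₃⟩ := Sf.unif ((f_G (n := n) (Λ := Λ)).fd (fun a => a.h.oΩ)) fun a z _ j => by
    positivity
  set A := max 1 C₂ with hA
  have hA0 : 0 ≤ A := zero_le_one.trans (le_max_left _ _)
  refine ⟨8 * A * (C₁ + C₁) + C₃, by positivity, fun j hj a z hz => ?_⟩
  have hR := a.R0
  have hN : 0 ≤ Nn a z := (a.h.N0 z hz).le
  have hK : 0 ≤ Kk a z := (a.h.K0 z hz).le
  have hE := Real.exp_pos (uf a.l z)
  have s1 : ContDiffOn ℝ ∞ (fderiv ℝ (uf a.l)) a.Ω :=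
    (s_u a).fderiv_of_isOpen a.h.oΩ (by norm_num)
  have s2 : ContDiffOn ℝ ∞ (fderiv ℝ (Gf a.l a.g a.S)) a.Ω :=
    (s_G a).fderiv_of_isOpen a.h.oΩ (by norm_num)
  have k1 := jet_add a.h.oΩ ((s_N a).smul s1) s2 hz (fun y hy => fd_W a hy) j
  have k2 : ‖iteratedFDeriv ℝ j (fun y => Nn a y • fderiv ℝ (uf a.l) y) z‖ ≤
      2 ^ j * A * (Nn a z * (C₁ * a.R⁻¹ ^ j) + Kk a z * (if j = 0 then 0 else C₁)) := by
    refine leib a.h.oΩ (s_N a) s1 hz hA0 hN hK (by split_ifs <;> positivity) (by positivity) ?_ ?_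
      ?_ ?_
    · rw [abs_of_nonneg hN]
      calc Nn a z = 1 * Nn a z := (one_mul _).symm
        _ ≤ A * Nn a z := mul_le_mul_of_nonneg_right (le_max_left _ _) hN
    · intro i hi hij
      obtain ⟨i, rfl⟩ : ∃ m, i = m + 1 := ⟨i - 1, by omega⟩
      rw [← norm_iteratedFDeriv_fderiv]
      have := h₂ i (by omega) a z hz
      simp only [inv_one, one_pow, mul_one] at this
      exact this.trans (mul_le_mul_of_nonneg_right (le_max_right _ _) hK)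
    · intro i hi
      have h4 := h₁ i (by omega) a z hz
      rw [if_neg (by omega : ¬j = 0)]
      refine h4.trans ?_
      rw [one_mul]
      calc C₁ * a.R⁻¹ ^ i ≤ C₁ * 1 := by
            refine mul_le_mul_of_nonneg_left ?_ hC₁
            exact pow_le_one₀ (inv_nonneg.2 hR.le) (inv_le_one_of_one_le₀ a.h.R1)
        _ = C₁ := mul_one _
    · have h4 := h₁ j (by omega) a z hz
      rwa [one_mul] at h4
  have k3 : ‖iteratedFDeriv ℝ j (fderiv ℝ (Gf a.l a.g a.S)) z‖ ≤ C₃ * Real.exp (uf a.l z) := by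
    have := h₃ j (by omega) a z hz
    simpa using this
  have k4 : (2 : ℝ) ^ j ≤ 8 := by
    calc (2 : ℝ) ^ j ≤ 2 ^ 3 := pow_le_pow_right₀ (by norm_num) hj
      _ = 8 := by norm_num
  have hp : 0 ≤ a.R⁻¹ ^ j := by positivity
  set P := a.R⁻¹ ^ j with hP
  have k5 : Kk a z * (if j = 0 then 0 else C₁) = C₁ * (if j = 0 then 0 else Kk a z) := by
    split_ifs <;> ring
  rw [k5] at k2
  set K' := (if j = 0 then (0 : ℝ) else Kk a z) with hK'
  have hK'0 : 0 ≤ K' := by rw [hK']; split_ifs <;> [exact le_rfl; exact hK]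
  have k6 : (2 : ℝ) ^ j * A * (Nn a z * (C₁ * P) + C₁ * K') ≤
      8 * A * (Nn a z * (C₁ * P) + C₁ * K') := by
    have : 0 ≤ Nn a z * (C₁ * P) + C₁ * K' := by positivity
    have := mul_le_mul_of_nonneg_right k4 hA0
    gcongr
  have e1 : (8 * A * (C₁ + C₁) + C₃) * (Nn a z * P + K' + Real.exp (uf a.l z)) =
      8 * A * (Nn a z * (C₁ * P) + C₁ * K') + C₃ * Real.exp (uf a.l z) +
      (8 * A * C₁ * (Nn a z * P + K') + 8 * A * (C₁ + C₁) * Real.exp (uf a.l z) +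
        C₃ * (Nn a z * P + K')) := by ring
  rw [e1]
  have k7 : 0 ≤ 8 * A * C₁ * (Nn a z * P + K') + 8 * A * (C₁ + C₁) * Real.exp (uf a.l z) +
        C₃ * (Nn a z * P + K') := by positivity
  exact (k1.trans (add_le_add (k2.trans k6) k3)).trans (le_add_of_nonneg_right k7)

/-- The second jets of `D_w W`. -/
theorem j_dwW : ∃ C, 0 ≤ C ∧ ∀ (a : Fm n Λ) (w : VV n), ∀ z ∈ a.Ω,
    ‖iteratedFDeriv ℝ 2 (dv w (W0 a.l a.g a.Φ a.S)) z‖ ≤
      C * ((Kk a z + Real.exp (uf a.l z)) * om a.l a.R z w + Nn a z * (a.R⁻¹ ^ 2 * ‖w‖)) := by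
  obtain ⟨C₁, hC₁, h₁⟩ := j_dwu (n := n) (Λ := Λ)
  obtain ⟨C₂, hC₂, h₂⟩ := Sf.unif (f_dN (n := n) (Λ := Λ)) fun a z hz j => by
    have := (a.h.K0 z hz).le
    unfold Kk
    positivity
  obtain ⟨C₃, hC₃, h₃⟩ := Sf.unif (f_dwG (n := n) (Λ := Λ)) fun a z _ j => by
    have := om_nn a.1.l a.1.R0 z a.2
    positivity
  obtain ⟨C₄, hC₄, h₄⟩ := Sf.unif (f_dwu (n := n) (Λ := Λ)) fun a z _ j => by
    have := om_nn a.1.l a.1.R0 z a.2
    positivity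
  set A := max 1 C₂ with hA
  have hA0 : 0 ≤ A := zero_le_one.trans (le_max_left _ _)
  refine ⟨4 * A * (C₁ + C₄) + C₃, by positivity, fun a w z hz => ?_⟩
  have hR := a.R0
  have hN : 0 ≤ Nn a z := (a.h.N0 z hz).le
  have hK : 0 ≤ Kk a z := (a.h.K0 z hz).le
  have hE := Real.exp_pos (uf a.l z)
  have ho := om_nn a.l hR z w
  have k1 := jet_add (h := dv w (W0 a.l a.g a.Φ a.S)) a.h.oΩ
    ((s_N a).smul (sm_dv a.h.oΩ (s_u a) w)) (sm_dv a.h.oΩ (s_G a) w) hz (fun y hy => by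
      show fderiv ℝ (W0 a.l a.g a.Φ a.S) y w = _
      rw [fd_W a hy]
      rfl) 2
  have k2 : ‖iteratedFDeriv ℝ 2 (fun y => Nn a y • dv w (uf a.l) y) z‖ ≤
      2 ^ 2 * A * (Nn a z * (C₁ * (a.R⁻¹ ^ 2 * ‖w‖)) + Kk a z * (C₄ * om a.l a.R z w)) := by
    refine leib a.h.oΩ (s_N a) (sm_dv a.h.oΩ (s_u a) w) hz hA0 hN hK (by positivity)
      (by positivity) ?_ ?_ ?_ ?_
    · rw [abs_of_nonneg hN]
      calc Nn a z = 1 * Nn a z := (one_mul _).symm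
        _ ≤ A * Nn a z := mul_le_mul_of_nonneg_right (le_max_left _ _) hN
    · intro i hi hij
      obtain ⟨i, rfl⟩ : ∃ m, i = m + 1 := ⟨i - 1, by omega⟩
      rw [← norm_iteratedFDeriv_fderiv]
      have := h₂ i (by omega) a z hz
      simp only [inv_one, one_pow, mul_one] at this
      exact this.trans (mul_le_mul_of_nonneg_right (le_max_right _ _) hK)
    · intro i hi
      have := h₄ i (by omega) (a, w) z hz
      simpa using this
    · exact h₁ 2 (by norm_num) a w z hz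
  have k3 : ‖iteratedFDeriv ℝ 2 (dv w (Gf a.l a.g a.S)) z‖ ≤
      C₃ * (Real.exp (uf a.l z) * om a.l a.R z w) := by
    have := h₃ 2 (by norm_num) (a, w) z hz
    simpa using this
  have hp : 0 ≤ a.R⁻¹ ^ 2 * ‖w‖ := by positivity
  set P := a.R⁻¹ ^ 2 * ‖w‖ with hP
  set o := om a.l a.R z w with ho'
  have e1 : (4 * A * (C₁ + C₄) + C₃) * ((Kk a z + Real.exp (uf a.l z)) * o + Nn a z * P) =
      2 ^ 2 * A * (Nn a z * (C₁ * P) + Kk a z * (C₄ * o)) + C₃ * (Real.exp (uf a.l z) * o) +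
      (4 * A * C₄ * (Nn a z * P) + 4 * A * C₁ * (Kk a z * o) +
        4 * A * (C₁ + C₄) * (Real.exp (uf a.l z) * o) + C₃ * (Kk a z * o + Nn a z * P)) := by ring
  rw [e1]
  have k7 : 0 ≤ 4 * A * C₄ * (Nn a z * P) + 4 * A * C₁ * (Kk a z * o) +
        4 * A * (C₁ + C₄) * (Real.exp (uf a.l z) * o) + C₃ * (Kk a z * o + Nn a z * P) := by
    positivity
  exact (k1.trans (add_le_add k2 k3)).trans (le_add_of_nonneg_right k7)

end fam

/-- **(WD)** -/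
theorem rowWD : RowWD := by
  intro n Λ hΛ
  obtain ⟨C₁, hC₁, h₁⟩ := j_dW (n := n) (Λ := Λ)
  obtain ⟨C₂, hC₂, h₂⟩ := j_dwW (n := n) (Λ := Λ)
  refine ⟨1 + C₁ + C₂, by linarith, fun R l g Φ S O Ω h z hz => ?_⟩
  set a : Fm n Λ := ⟨R, l, g, Φ, S, O, Ω, h⟩ with ha
  have hR : 0 < R := a.R0
  have hU := h.oΩ
  have sW : ContDiffOn ℝ ∞ (W0 l g Φ S) Ω := s_W a
  have hN : 0 ≤ deriv Φ (uf l z) := (h.N0 z hz).le
  have hK : 0 ≤ deriv (deriv Φ) (uf l z) := (h.K0 z hz).le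
  have hE := Real.exp_pos (uf l z)
  have b : ∀ j ≤ 3, ‖iteratedFDeriv ℝ j (fderiv ℝ (W0 l g Φ S)) z‖ ≤
      C₁ * (deriv Φ (uf l z) * R⁻¹ ^ j + (if j = 0 then 0 else deriv (deriv Φ) (uf l z)) +
        Real.exp (uf l z)) := fun j hj => h₁ j hj a z hz
  set N := deriv Φ (uf l z) with hNd
  set K := deriv (deriv Φ) (uf l z) with hKd
  set E := Real.exp (uf l z) with hEd
  have b1 : ∀ {j : ℕ} {x y : ℝ}, 0 ≤ y → x ≤ C₁ * y → x ≤ (1 + C₁ + C₂) * y := by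
    intro j x y hy hx
    nlinarith
  have b2 : ∀ {x y : ℝ}, 0 ≤ y → x ≤ C₂ * y → x ≤ (1 + C₁ + C₂) * y := by
    intro x y hy hx
    nlinarith
  have a0 : ∀ (v : VV n) (f : VV n → ℝ), ContDiffOn ℝ ∞ f Ω → |dv v f z| ≤
      ‖v‖ * ‖iteratedFDeriv ℝ 1 f z‖ := fun v f hf => by
    have := jet_dv' hU hf v hz 0
    simpa using this
  refine ⟨?_, ?_, ?_, ?_, ?_⟩
  · intro v
    have h3 := b 0 (by norm_num)
    simp only [norm_iteratedFDeriv_zero, pow_zero, mul_one, if_true, add_zero] at h3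
    refine (abs_dv v).trans (mul_le_mul_of_nonneg_right ?_ (norm_nonneg v))
    exact b1 (j := 0) (by positivity) h3
  · intro w v
    have h3 := b 1 (by norm_num)
    rw [if_neg one_ne_zero, pow_one] at h3
    have h4 : |dv w (dv v (W0 l g Φ S)) z| ≤ ‖w‖ * (‖v‖ * (C₁ * (N * R⁻¹ + K + E))) :=
      (a0 w _ (sm_dv hU sW v)).trans (mul_le_mul_of_nonneg_left
        ((jet_dv hU sW v hz 1).trans (mul_le_mul_of_nonneg_left h3 (norm_nonneg v)))
        (norm_nonneg w))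
    have h5 : 0 ≤ N / R := by positivity
    have h6 : C₁ * (N * R⁻¹ + K + E) ≤ (1 + C₁ + C₂) * (K + E + N / R) := by
      refine b1 (j := 0) (by positivity) (le_of_eq ?_)
      rw [div_eq_mul_inv]; ring
    calc _ ≤ ‖w‖ * (‖v‖ * (C₁ * (N * R⁻¹ + K + E))) := h4
      _ ≤ ‖w‖ * (‖v‖ * ((1 + C₁ + C₂) * (K + E + N / R))) := by gcongr
      _ = _ := by ring
  · intro w v v'
    have h3 := b 2 (by norm_num)
    rw [if_neg two_ne_zero] at h3
    have h4 : |dv w (dv v (dv v' (W0 l g Φ S))) z| ≤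
        ‖w‖ * (‖v‖ * (‖v'‖ * (C₁ * (N * R⁻¹ ^ 2 + K + E)))) :=
      (a0 w _ (sm_dv hU (sm_dv hU sW v') v)).trans (mul_le_mul_of_nonneg_left
        ((jet_dv' hU (sm_dv hU sW v') v hz 1).trans (mul_le_mul_of_nonneg_left
          ((jet_dv hU sW v' hz 2).trans (mul_le_mul_of_nonneg_left h3 (norm_nonneg v')))
          (norm_nonneg v))) (norm_nonneg w))
    have h6 : C₁ * (N * R⁻¹ ^ 2 + K + E) ≤ (1 + C₁ + C₂) * (K + E + N / R ^ 2) := by
      refine b1 (j := 0) (by positivity) (le_of_eq ?_)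
      rw [div_eq_mul_inv, inv_pow]; ring
    calc _ ≤ ‖w‖ * (‖v‖ * (‖v'‖ * (C₁ * (N * R⁻¹ ^ 2 + K + E)))) := h4
      _ ≤ ‖w‖ * (‖v‖ * (‖v'‖ * ((1 + C₁ + C₂) * (K + E + N / R ^ 2)))) := by gcongr
      _ = _ := by ring
  · intro w v v'
    have e : dv w (dv v (dv v' (W0 l g Φ S))) z = dv v (dv v' (dv w (W0 l g Φ S))) z := by
      rw [dv_comm hU (sm_dv hU sW v') w v hz]
      exact dv_congr hU (fun y hy => dv_comm hU sW w v' hy) v hz
    have h3 : ‖iteratedFDeriv ℝ 2 (dv w (W0 l g Φ S)) z‖ ≤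
      C₂ * ((K + E) * om l R z w + N * (R⁻¹ ^ 2 * ‖w‖)) := h₂ a w z hz
    have ho := om_nn l hR z w
    have h4 : |dv v (dv v' (dv w (W0 l g Φ S))) z| ≤
        ‖v‖ * (‖v'‖ * (C₂ * ((K + E) * om l R z w + N * (R⁻¹ ^ 2 * ‖w‖)))) :=
      (a0 v _ (sm_dv hU (sm_dv hU sW w) v')).trans (mul_le_mul_of_nonneg_left
        ((jet_dv' hU (sm_dv hU sW w) v' hz 1).trans (mul_le_mul_of_nonneg_left h3
          (norm_nonneg v'))) (norm_nonneg v))
    have h6 : C₂ * ((K + E) * om l R z w + N * (R⁻¹ ^ 2 * ‖w‖)) ≤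
        (1 + C₁ + C₂) * ((K + E) * om l R z w + N / R ^ 2 * ‖w‖) := by
      refine b2 (by positivity) (le_of_eq ?_)
      rw [div_eq_mul_inv, inv_pow]; ring
    rw [e]
    calc _ ≤ ‖v‖ * (‖v'‖ * (C₂ * ((K + E) * om l R z w + N * (R⁻¹ ^ 2 * ‖w‖)))) := h4
      _ ≤ ‖v‖ * (‖v'‖ * ((1 + C₁ + C₂) * ((K + E) * om l R z w + N / R ^ 2 * ‖w‖))) := by gcongr
      _ = _ := by ring
  · intro w w' v v'
    have h3 := b 3 le_rfl
    rw [if_neg three_ne_zero] at h3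
    have h4 : |dv w (dv w' (dv v (dv v' (W0 l g Φ S)))) z| ≤
        ‖w‖ * (‖w'‖ * (‖v‖ * (‖v'‖ * (C₁ * (N * R⁻¹ ^ 3 + K + E))))) :=
      (a0 w _ (sm_dv hU (sm_dv hU (sm_dv hU sW v') v) w')).trans (mul_le_mul_of_nonneg_left
        ((jet_dv' hU (sm_dv hU (sm_dv hU sW v') v) w' hz 1).trans (mul_le_mul_of_nonneg_left
          ((jet_dv' hU (sm_dv hU sW v') v hz 2).trans (mul_le_mul_of_nonneg_left
            ((jet_dv hU sW v' hz 3).trans (mul_le_mul_of_nonneg_left h3 (norm_nonneg v')))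
            (norm_nonneg v))) (norm_nonneg w'))) (norm_nonneg w))
    have h6 : C₁ * (N * R⁻¹ ^ 3 + K + E) ≤ (1 + C₁ + C₂) * (K + E + N / R ^ 3) := by
      refine b1 (j := 0) (by positivity) (le_of_eq ?_)
      rw [div_eq_mul_inv, inv_pow]; ring
    calc _ ≤ ‖w‖ * (‖w'‖ * (‖v‖ * (‖v'‖ * (C₁ * (N * R⁻¹ ^ 3 + K + E))))) := h4
      _ ≤ ‖w‖ * (‖w'‖ * (‖v‖ * (‖v'‖ * ((1 + C₁ + C₂) * (K + E + N / R ^ 3))))) := by gcongr
      _ = _ := by ring

end Vale.Agent.P088.R2.H808.Z0
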