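import Vale.Agent.P088.R2.H747.S.Zn
import Vale.Agent.P088.R2.H747.S.SemW3
import Vale.Agent.P088.R2.H972.E.Unit
import Vale.Agent.P088.R2.H338.C.Lad
import Vale.Agent.P088.R2.H808.Z.Loc
import Vale.Agent.P088.R2.H165.Tab

/-!
# P088, stage 3: the zone inequality for general forms, with a unit margin

`zoneQ`: `Zone σ τ U θ v₁ v₂ W χ (χ² MQ) coQ` from `semW` (general forms `q`, `q'`).
`zone0`: with the margins `s |X a|²`, `s F a²` of `unit_of`.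
-/

open MeasureTheory Set Filter
open scoped ContDiff Topology

noncomputable section

namespace Vale.Agent.P088.R2.H808.Zq

open Vale.Agent.P088.R2.H961.GW Vale.Agent.P088.R2.H644 Vale.Agent.P088.R2.H960.W
open Vale.Agent.P088.R2.H551.E Vale.Agent.P088.R2.H747.SW Vale.Agent.P088.R2.H808.Z
open Vale.Agent.P088.R2.H86.Z (El)
open Vale.Agent.P088.R2.H972.E (Qz Dom zsq cuq unit_of cuq_ct ct_add)
open Vale.Agent.P088.R2.H165 (Tab.Nu Tab.M0 Tab.c0)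

variable {E ι : Type*} [NormedAddCommGroup E] [NormedSpace ℝ E] [Fintype ι]

/-- The margin for general forms (without the factor `χ²`). -/
def MQ (σ τ : Sl E ι) (W : E → ℝ) (q q' : ι → ι → E → ℝ) (m : E → ℝ) (κ₀ : ℝ) : Q8 E where
  κ _ := 1 - κ₀
  ζ₁ z := m z
  ζ₂ z := m z
  ζy _ := 0
  w₁ z := 1 / 3 * qq q (fun i => σ.D i W z) z
  w₂ z := 1 / 3 * qq q' (fun i => τ.D i W z) z
  wb _ := 0
  wc _ := 0

/-- The cost for general forms. -/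
def coQ (σ τ : Sl E ι) (W : E → ℝ) (q q' : ι → ι → E → ℝ) (m χ : E → ℝ) (η : ℝ) : Q8 E where
  κ _ := 0
  ζ₁ z := 32 * η * (ro m z * ∑ i, σ.D i χ z ^ 2)
  ζ₂ z := 32 * η * (ro m z * ∑ i, τ.D i χ z ^ 2)
  ζy _ := 0
  w₁ z := 3 / η * qq q (fun i => σ.D i χ z) z +
    144 * η * (ro m z * (∑ i, σ.D i χ z ^ 2) * ∑ i, σ.D i W z ^ 2)
  w₂ z := 3 / η * qq q' (fun i => τ.D i χ z) z +
    144 * η * (ro m z * (∑ i, τ.D i χ z ^ 2) * ∑ i, τ.D i W z ^ 2)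
  wb _ := 0
  wc _ := 0

variable {σ τ : Sl E ι} {U Ω S : Set E} {θ : E → ℝ} {v v₁ v₂ W f g h a b m χ : E → ℝ}
  {c c' : ι → E → ℝ} {q q' : ι → ι → E → ℝ} {η K κ₀ : ℝ}

omit [Fintype ι] in
theorem sro (hm : Sm U m) (hp : ∀ z ∈ U, 0 ≤ m z) : Sm U (ro m) :=
  hm.div (contDiffOn_const.add hm) fun z hz => by
    have := hp z hz
    positivity

theorem sDq (ok : σ.Ok U θ) (hq : ∀ i j, Sm U (q i j)) (hf : Sm U f) :
    Sm U fun z => qq q (fun i => σ.D i f z) z :=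
  sqq hq fun i => ok.sD hf i

/-- Continuity of the margin. -/
theorem MQ_ct (ok : σ.Ok U θ) (ot : τ.Ok U θ) (hW : Sm U W) (hq : ∀ i j, Sm U (q i j))
    (hq' : ∀ i j, Sm U (q' i j)) (hm : Sm U m) : (MQ σ τ W q q' m κ₀).Ct U :=
  ⟨continuousOn_const, hm.continuousOn, hm.continuousOn, continuousOn_const,
    (contDiffOn_const.mul (sDq ok hq hW)).continuousOn,
    (contDiffOn_const.mul (sDq ot hq' hW)).continuousOn, continuousOn_const, continuousOn_const⟩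

/-- Continuity of the cost. -/
theorem coQ_ct (ok : σ.Ok U θ) (ot : τ.Ok U θ) (hW : Sm U W) (hχ : Sm U χ)
    (hq : ∀ i j, Sm U (q i j)) (hq' : ∀ i j, Sm U (q' i j)) (hm : Sm U m)
    (hp : ∀ z ∈ U, 0 ≤ m z) : (coQ σ τ W q q' m χ η).Ct U := by
  have r1 := (sro hm hp).mul (sDs ok hχ)
  have r2 := (sro hm hp).mul (sDs ot hχ)
  exact ⟨continuousOn_const, (contDiffOn_const.mul r1).continuousOn,
    (contDiffOn_const.mul r2).continuousOn, continuousOn_const,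
    ((contDiffOn_const.mul (sDq ok hq hχ)).add
      (contDiffOn_const.mul (r1.mul (sDs ok hW)))).continuousOn,
    ((contDiffOn_const.mul (sDq ot hq' hχ)).add
      (contDiffOn_const.mul (r2.mul (sDs ot hW)))).continuousOn,
    continuousOn_const, continuousOn_const⟩

/-- The margin where `χ = 0`. -/
theorem MQ_0 {M : Q8 E} {z : E} (h : χ z = 0) : Q0 (M.sm fun z => χ z ^ 2) z := by
  constructor <;> simp [Q8.sm, h]

/-- The cost where `χ = 0` near the point. -/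
theorem coQ_0 {z : E} (h : ∀ i, σ.D i χ z = 0) (h' : ∀ i, τ.D i χ z = 0) :
    Q0 (coQ σ τ W q q' m χ η) z := by
  constructor <;> simp [coQ, qq, h, h']

/-! ## The unit margin: definitions -/

/-- The margin of `zone0` (without the factor `χ²`). -/
def MS (σ τ : Sl E ι) (W : E → ℝ) (q q' : ι → ι → E → ℝ) (m s : E → ℝ) (κ₀ : ℝ) : Q8 E where
  κ _ := 1 / 2 * (1 - κ₀)
  ζ₁ z := m z + s z
  ζ₂ z := m z + s z
  ζy _ := 0
  w₁ z := 1 / 6 * qq q (fun i => σ.D i W z) z + s z * σ.F W z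
  w₂ z := 1 / 6 * qq q' (fun i => τ.D i W z) z + s z * τ.F W z
  wb _ := 0
  wc _ := 0

/-- The hypotheses of `zone0` at a point. -/
structure P0 (σ τ : Sl E ι) (v₁ v₂ W : E → ℝ) (q q' : ι → ι → E → ℝ) (s r₁ r₂ : E → ℝ)
    (δ : ℝ) (z : E) : Prop where
  s0 : 0 ≤ s z
  Q₁ : Qz σ v₁ W s r₁ δ z ≤ 1 / 6 * qq q (fun i => σ.D i W z) z
  Q₂ : Qz τ v₂ W s r₂ δ z ≤ 1 / 6 * qq q' (fun i => τ.D i W z) z
  r₁ : 0 ≤ r₁ z ∧ σ.Γ s s z ≤ s z * r₁ z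
  r₂ : 0 ≤ r₂ z ∧ τ.Γ s s z ≤ s z * r₂ z

theorem MS_ct (ok : σ.Ok U θ) (ot : τ.Ok U θ) (hW : Sm U W) (hq : ∀ i j, Sm U (q i j))
    (hq' : ∀ i j, Sm U (q' i j)) (hm : Sm U m) {s : E → ℝ} (hs : Sm U s) :
    (MS σ τ W q q' m s κ₀).Ct U :=
  ⟨continuousOn_const, (hm.add hs).continuousOn, (hm.add hs).continuousOn, continuousOn_const,
    ((contDiffOn_const.mul (sDq ok hq hW)).add (hs.mul (ok.sF hW))).continuousOn,
    ((contDiffOn_const.mul (sDq ot hq' hW)).add (hs.mul (ot.sF hW))).continuousOn,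
    continuousOn_const, continuousOn_const⟩

/-- `|X a - X b|² ≤ 2 |X a|² + 2 |X b|²`. -/
theorem nY_le (σ τ : Sl E ι) (W a b : E → ℝ) (z : E) :
    nY σ τ W a b z ≤ 2 * nX σ W a z + 2 * nX τ W b z := by
  unfold nY nX
  rw [Finset.mul_sum, Finset.mul_sum, ← Finset.sum_add_distrib]
  refine Finset.sum_le_sum fun i _ => ?_
  nlinarith [sq_nonneg (Ch.XX σ W a z i + Ch.XX τ W b z i)]

/-- The comparison with the letters of the table at a point, `e = En + sg N`. -/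
structure P0T (σ τ : Sl E ι) (W : E → ℝ) (q q' : ι → ι → E → ℝ) (m s Z χ : E → ℝ)
    (ν : Tab.Nu E) (c C₁ sg : ℝ) (z : E) : Prop where
  En : 0 ≤ ν.En z
  N : 0 ≤ sg * ν.N z
  ζ : 3 * c * (ν.En z + sg * ν.N z) ≤ m z + s z
  w₁ : c * ((ν.En z + sg * ν.N z) * ν.N z ^ 2) ≤
    1 / 6 * qq q (fun i => σ.D i W z) z + s z * σ.F W z
  w₂ : c * ((ν.En z + sg * ν.N z) * ν.N z ^ 2) ≤
    1 / 6 * qq q' (fun i => τ.D i W z) z + s z * τ.F W z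
  m1 : m z ≤ C₁ * (ν.En z + sg * ν.N z)
  s1 : s z ≤ C₁ * (ν.En z + sg * ν.N z)
  K : 0 ≤ ν.K z
  q₁ : ∀ A : ι → ℝ, qq q A z ≤ C₁ * (ν.K z + (ν.En z + sg * ν.N z)) * ∑ i, A i ^ 2
  q₂ : ∀ A : ι → ℝ, qq q' A z ≤ C₁ * (ν.K z + (ν.En z + sg * ν.N z)) * ∑ i, A i ^ 2
  d₁ : ∑ i, σ.D i W z ^ 2 ≤ C₁ * (1 + ν.N z ^ 2)
  d₂ : ∑ i, τ.D i W z ^ 2 ≤ C₁ * (1 + ν.N z ^ 2)
  Z₁ : ∑ i, σ.D i χ z ^ 2 ≤ Z z
  Z₂ : ∑ i, τ.D i χ z ^ 2 ≤ Z z

/-- The margin of the table. -/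
theorem M0_le {s Z : E → ℝ} {ν : Tab.Nu E} {c C₁ sg : ℝ} {z : E}
    (p : P0T σ τ W q q' m s Z χ ν c C₁ sg z) (hc : 0 ≤ c) (hc' : c ≤ 1 / 2 * (1 - κ₀))
    (a b : E → ℝ) : (Tab.M0 ν c sg).dens σ τ v₁ v₂ W a b z ≤
      (MS σ τ W q q' m s κ₀).dens σ τ v₁ v₂ W a b z := by
  have x1 : 0 ≤ nX σ W a z := Finset.sum_nonneg fun _ _ => sq_nonneg _
  have x2 : 0 ≤ nX τ W b z := Finset.sum_nonneg fun _ _ => sq_nonneg _
  have y := nY_le σ τ W a b z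
  have sq := sqd_nonneg σ τ v₁ v₂ W a b z
  have h1 := mul_le_mul_of_nonneg_right hc' sq
  have h2 := mul_le_mul_of_nonneg_right p.ζ x1
  have h3 := mul_le_mul_of_nonneg_right p.ζ x2
  have h4 := mul_le_mul_of_nonneg_left y (mul_nonneg hc p.En)
  have h5 := mul_le_mul_of_nonneg_right p.w₁ (sq_nonneg (a z))
  have h6 := mul_le_mul_of_nonneg_right p.w₂ (sq_nonneg (b z))
  have h7 := mul_nonneg (mul_nonneg hc p.N) x1
  have h8 := mul_nonneg (mul_nonneg hc p.N) x2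
  simp only [Q8.dens, Tab.M0, MS]
  linarith

/-- One weight of the cost. -/
theorem cost1 {σ : Sl E ι} {q : ι → ι → E → ℝ} {s : E → ℝ} {z : E} {k e N2 Z C₁ : ℝ}
    (el : El σ z) (hη : 0 < η) (hη1 : η ≤ 1) (h1 : 1 ≤ C₁) (hk : 0 ≤ k) (he : 0 ≤ e)
    (hN : 0 ≤ N2) (m0 : 0 ≤ m z) (m1 : m z ≤ C₁ * e) (s0 : 0 ≤ s z) (s1 : s z ≤ C₁ * e)
    (hq : ∀ A : ι → ℝ, qq q A z ≤ C₁ * (k + e) * ∑ i, A i ^ 2)
    (d : ∑ i, σ.D i W z ^ 2 ≤ C₁ * (1 + N2)) (hZ : ∑ i, σ.D i χ z ^ 2 ≤ Z) :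
    3 / η * qq q (fun i => σ.D i χ z) z +
      144 * η * (ro m z * (∑ i, σ.D i χ z ^ 2) * ∑ i, σ.D i W z ^ 2) +
      64 * (s z * σ.Γ χ χ z) ≤
        500 * C₁ ^ 2 * ((1 / η * (k + e) + η * N2 * (e / (1 + e))) * Z) ∧
    32 * η * (ro m z * ∑ i, σ.D i χ z ^ 2) ≤ 500 * C₁ ^ 2 * (η * (e / (1 + e) * Z)) := by
  have hC0 : 0 ≤ C₁ := by linarith
  have nD : 0 ≤ ∑ i, σ.D i χ z ^ 2 := Finset.sum_nonneg fun _ _ => sq_nonneg _
  have nW : 0 ≤ ∑ i, σ.D i W z ^ 2 := Finset.sum_nonneg fun _ _ => sq_nonneg _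
  have hZ0 : 0 ≤ Z := nD.trans hZ
  have hx0 : 0 ≤ e / (1 + e) := div_nonneg he (by linarith)
  have hxe : e / (1 + e) ≤ e := by
    rw [div_le_iff₀ (by linarith)]
    nlinarith
  have ro0 : 0 ≤ ro m z := div_nonneg m0 (by linarith)
  have ro1 : ro m z ≤ C₁ * (e / (1 + e)) := by
    unfold ro
    rw [← mul_div_assoc, div_le_div_iff₀ (by linarith) (by linarith)]
    have := mul_nonneg (mul_nonneg m0 he) (sub_nonneg.2 h1)
    nlinarith [mul_nonneg m0 he]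
  set X := e / (1 + e) * Z with hX
  have heZ : 0 ≤ X := mul_nonneg hx0 hZ0
  have hXe : X ≤ (k + e) * Z := mul_le_mul_of_nonneg_right (by linarith) hZ0
  have a1 : ro m z * ∑ i, σ.D i χ z ^ 2 ≤ C₁ * X := by
    calc ro m z * ∑ i, σ.D i χ z ^ 2 ≤ (C₁ * (e / (1 + e))) * Z :=
          mul_le_mul ro1 hZ nD (mul_nonneg hC0 hx0)
      _ = _ := by rw [hX]; ring
  have a0 : 0 ≤ ro m z * ∑ i, σ.D i χ z ^ 2 := mul_nonneg ro0 nD
  have a2 : ro m z * (∑ i, σ.D i χ z ^ 2) * ∑ i, σ.D i W z ^ 2 ≤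
      C₁ * X * (C₁ * (1 + N2)) := mul_le_mul a1 d nW (mul_nonneg hC0 heZ)
  have hke : 0 ≤ k + e := by linarith
  set Y := (k + e) * Z with hY
  have hY0 : 0 ≤ Y := mul_nonneg hke hZ0
  have a3 : qq q (fun i => σ.D i χ z) z ≤ C₁ * Y := by
    refine (hq _).trans ?_
    calc C₁ * (k + e) * ∑ i, σ.D i χ z ^ 2 ≤ C₁ * (k + e) * Z :=
          mul_le_mul_of_nonneg_left hZ (mul_nonneg hC0 hke)
      _ = _ := by rw [hY]; ring
  have g0 : σ.Γ χ χ z ≤ 2 * Z := by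
    have := el.up fun i => σ.D i χ z
    calc σ.Γ χ χ z ≤ 2 * ∑ i, σ.D i χ z ^ 2 := this
      _ ≤ _ := by linarith
  have a4 : s z * σ.Γ χ χ z ≤ 2 * (C₁ * Y) := by
    calc s z * σ.Γ χ χ z ≤ s z * (2 * Z) := mul_le_mul_of_nonneg_left g0 s0
      _ ≤ C₁ * e * (2 * Z) := mul_le_mul_of_nonneg_right s1 (by linarith)
      _ ≤ C₁ * (k + e) * (2 * Z) := mul_le_mul_of_nonneg_right
          (mul_le_mul_of_nonneg_left (by linarith) hC0) (by linarith)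
      _ = _ := by rw [hY]; ring
  have i1 : 1 ≤ 1 / η := by rw [le_div_iff₀ hη]; linarith
  have i2 : 3 / η = 3 * (1 / η) := by ring
  set I := 1 / η with hI
  have cc : C₁ ≤ C₁ ^ 2 := by nlinarith
  have X1 : C₁ * X ≤ C₁ ^ 2 * X := mul_le_mul_of_nonneg_right cc heZ
  have Y1 : C₁ * Y ≤ C₁ ^ 2 * Y := mul_le_mul_of_nonneg_right cc hY0
  have XY : C₁ ^ 2 * X ≤ C₁ ^ 2 * Y := mul_le_mul_of_nonneg_left hXe (sq_nonneg _)
  have t1 : 3 / η * qq q (fun i => σ.D i χ z) z ≤ 3 * I * (C₁ ^ 2 * Y) := by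
    rw [i2]
    exact mul_le_mul_of_nonneg_left (a3.trans Y1) (by positivity)
  have t2 : 144 * η * (ro m z * (∑ i, σ.D i χ z ^ 2) * ∑ i, σ.D i W z ^ 2) ≤
      144 * η * (C₁ * X * (C₁ * (1 + N2))) := mul_le_mul_of_nonneg_left a2 (by positivity)
  have t3 : 64 * (s z * σ.Γ χ χ z) ≤ 128 * (C₁ ^ 2 * Y) := by linarith
  have hX2 : 0 ≤ C₁ ^ 2 * X := mul_nonneg (sq_nonneg _) heZ
  have hY2 : 0 ≤ C₁ ^ 2 * Y := mul_nonneg (sq_nonneg _) hY0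
  have b1 : C₁ ^ 2 * Y ≤ I * (C₁ ^ 2 * Y) := by nlinarith
  have b2 : η * (C₁ ^ 2 * X) ≤ I * (C₁ ^ 2 * Y) :=
    mul_le_mul (hη1.trans i1) XY hX2 (by linarith)
  have b3 : 0 ≤ η * N2 * (C₁ ^ 2 * X) := by positivity
  constructor
  · have e1 : 144 * η * (C₁ * X * (C₁ * (1 + N2))) =
        144 * (η * (C₁ ^ 2 * X)) + 144 * (η * N2 * (C₁ ^ 2 * X)) := by ring
    have e2 : 500 * C₁ ^ 2 * ((I * (k + e) + η * N2 * (e / (1 + e))) * Z) =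
        500 * (I * (C₁ ^ 2 * Y)) + 500 * (η * N2 * (C₁ ^ 2 * X)) := by rw [hX, hY]; ring
    rw [e1] at t2
    rw [e2]
    linarith
  · have b4 : 32 * η * (ro m z * ∑ i, σ.D i χ z ^ 2) ≤ 32 * η * (C₁ ^ 2 * X) :=
      mul_le_mul_of_nonneg_left (a1.trans X1) (by positivity)
    have b5 : 0 ≤ η * (C₁ ^ 2 * X) := by positivity
    have e3 : 500 * C₁ ^ 2 * (η * X) = 500 * (η * (C₁ ^ 2 * X)) := by ring
    rw [e3]
    linarith

/-- The cost of the table. -/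
theorem c0_le {s Z : E → ℝ} {ν : Tab.Nu E} {c C₁ sg : ℝ} {z : E}
    (p : P0T σ τ W q q' m s Z χ ν c C₁ sg z) (el₁ : El σ z) (el₂ : El τ z) (hη : 0 < η)
    (hη1 : η ≤ 1) (h1 : 1 ≤ C₁) (m0 : 0 ≤ m z) (s0 : 0 ≤ s z) (a b : E → ℝ) :
    (coQ σ τ W q q' m χ η + cuq σ τ s χ).dens σ τ v₁ v₂ W a b z ≤
      (Tab.c0 ν (500 * C₁ ^ 2) sg Z η).dens σ τ v₁ v₂ W a b z := by
  have he := add_nonneg p.En p.N
  obtain ⟨k1, k2⟩ := cost1 el₁ hη hη1 h1 p.K he (sq_nonneg (ν.N z)) m0 p.m1 s0 p.s1 p.q₁ p.d₁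
    p.Z₁
  obtain ⟨k3, k4⟩ := cost1 el₂ hη hη1 h1 p.K he (sq_nonneg (ν.N z)) m0 p.m1 s0 p.s1 p.q₂ p.d₂
    p.Z₂
  have x1 : 0 ≤ nX σ W a z := Finset.sum_nonneg fun _ _ => sq_nonneg _
  have x2 : 0 ≤ nX τ W b z := Finset.sum_nonneg fun _ _ => sq_nonneg _
  have h1 := mul_le_mul_of_nonneg_right k1 (sq_nonneg (a z))
  have h2 := mul_le_mul_of_nonneg_right k2 x1
  have h3 := mul_le_mul_of_nonneg_right k3 (sq_nonneg (b z))
  have h4 := mul_le_mul_of_nonneg_right k4 x2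
  rw [Q8.dens_add]
  simp only [Q8.dens, Tab.c0, coQ, cuq]
  linarith

variable [MeasureSpace E] [FiniteDimensional ℝ E] [BorelSpace E]
  [(volume : Measure E).IsAddHaarMeasure]

/-- **The zone inequality for general forms**, all data smooth on `U`. -/
theorem zoneQ0 (ok : σ.Ok U θ) (ot : τ.Ok U θ) (hv₁ : Sm U v₁) (hv₂ : Sm U v₂) (hW : Sm U W)
    (hχ : Sm U χ) (hc : ∀ i, Sm U (c i)) (hc' : ∀ i, Sm U (c' i))
    (hq : ∀ i j, Sm U (q i j)) (hy : ∀ i j z, q i j z = q j i z) (hq' : ∀ i j, Sm U (q' i j))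
    (hy' : ∀ i j z, q' i j z = q' j i z) (hm : Sm U m)
    (hκ : 0 < κ₀) (hη : 0 < η) (hη1 : η ≤ 1 / 200) (hηκ : η ≤ κ₀)
    (hK : 0 ≤ K) (hηK : 2 * K * η ≤ 1)
    (sm₁ : ∀ z ∈ U, SmQ σ W q m c v₁ η K z) (sm₂ : ∀ z ∈ U, SmQ τ W q' m c' v₂ η K z)
    (cert : ∀ z ∈ U, ∀ (A B : ι → ℝ) (x y : ℝ),
      4 * (qq q A z + qq q' B z) - η * (qq q (fun i => σ.D i W z) z * x ^ 2 +
        qq q' (fun i => τ.D i W z) z * y ^ 2) ≤
      8 * (Ch.TH σ τ W z A B + tc σ c W z A + tc τ c' W z B) + qf σ τ v₁ v₂ W z A B x y) :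
    Zone σ τ U θ v₁ v₂ W χ ((MQ σ τ W q q' m κ₀).sm fun z => χ z ^ 2)
      (coQ σ τ W q q' m χ η) := by
  intro a b ha hb
  have hU := ok.op
  have main := semW ok ot hv₁ hv₂ hW ha hb hχ hU subset_rfl isClosed_univ
    (inter_subset_left) (fun z _ h => absurd (mem_univ z) h) hc hc' hq hy hq' hy' hm hκ hη hη1 hηκ
    hK hηK sm₁ sm₂ cert
  have hp : ∀ z ∈ U, 0 ≤ m z := fun z hz => (sm₁ z hz).m0
  have r1 := (sro hm hp).mul (sDs ok hχ)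
  have r2 := (sro hm hp).mul (sDs ot hχ)
  have hc2 : Sm U fun z => χ z ^ 2 := hχ.pow 2
  have tsx : Te U fun z => qq q (fun i => XX σ W a i z) z :=
    tqq ok hq fun i => tX ok hW ha i
  have tsy : Te U fun z => qq q' (fun i => XX τ W b i z) z :=
    tqq ot hq' fun i => tX ot hW hb i
  have f1 : Te U fun z => χ z ^ 2 * qq q (fun i => XX σ W a i z) z := tsx.mul_left hU hc2
  have f2 : Te U fun z => χ z ^ 2 * qq q' (fun i => XX τ W b i z) z := tsy.mul_left hU hc2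
  have g1 : Te U fun z => qE σ q W a z :=
    (tqq ok hq fun i => ok.tD ha i).add hU ((ha.sq hU).mul_left hU (sDq ok hq hW))
  have g2 : Te U fun z => qE τ q' W b z :=
    (tqq ot hq' fun i => ot.tD hb i).add hU ((hb.sq hU).mul_left hU (sDq ot hq' hW))
  have f3 : Te U fun z => χ z ^ 2 * qE σ q W a z := g1.mul_left hU hc2
  have f4 : Te U fun z => χ z ^ 2 * qE τ q' W b z := g2.mul_left hU hc2
  have f5 : Te U fun z => χ z ^ 2 * σ.P v₁ W a z ^ 2 :=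
    ((ok.tP hv₁ hW ha).sq hU).mul_left hU hc2
  have f6 : Te U fun z => χ z ^ 2 * τ.P v₂ W b z ^ 2 :=
    ((ot.tP hv₂ hW hb).sq hU).mul_left hU hc2
  have f7 : Te U fun z => qq q (fun i => σ.D i χ z) z * a z ^ 2 :=
    (ha.sq hU).mul_left hU (sDq ok hq hχ)
  have f8 : Te U fun z => qq q' (fun i => τ.D i χ z) z * b z ^ 2 :=
    (hb.sq hU).mul_left hU (sDq ot hq' hχ)
  have f9 : Te U fun z => ro m z * (∑ i, σ.D i χ z ^ 2) * (∑ i, σ.D i W z ^ 2) * a z ^ 2 :=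
    (ha.sq hU).mul_left hU (r1.mul (sDs ok hW))
  have f10 : Te U fun z => ro m z * (∑ i, τ.D i χ z ^ 2) * (∑ i, τ.D i W z ^ 2) * b z ^ 2 :=
    (hb.sq hU).mul_left hU (r2.mul (sDs ot hW))
  have f11 : Te U fun z => ro m z * (∑ i, σ.D i χ z ^ 2) * Ys σ W a z :=
    (Te.sum hU _ fun i _ => (tY ok hW ha i).sq hU).mul_left hU r1
  have f12 : Te U fun z => ro m z * (∑ i, τ.D i χ z ^ 2) * Ys τ W b z :=
    (Te.sum hU _ fun i _ => (tY ot hW hb i).sq hU).mul_left hU r2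
  have fg : Te U fun z => χ z ^ 2 * sqd σ τ v₁ v₂ W a b z :=
    (tsqd ok ot hv₁ hv₂ hW ha hb).mul_left hU hc2
  have fs : Te U fun z => χ z ^ 2 * sta σ τ v₁ v₂ W a b z :=
    (tsta ok ot hv₁ hv₂ hW ha hb).mul_left hU hc2
  have e0 : In U θ (fun z => χ z ^ 2 * dn σ τ v₁ v₂ W a b z) =
      In U θ (fun z => χ z ^ 2 * sqd σ τ v₁ v₂ W a b z) +
      In U θ (fun z => χ z ^ 2 * sta σ τ v₁ v₂ W a b z) := by
    rw [← In_add hU ok.ts fg fs]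
    exact In_congr hU fun z _ => by unfold dn; ring
  have e1 := In_add hU ok.ts f1 f2
  have e2 := In_add hU ok.ts f3 f4
  have e3 := In_add hU ok.ts f5 f6
  have e4 := In_add hU ok.ts f7 f8
  have e5 := In_add hU ok.ts (f9.add hU f10) (f11.add hU f12)
  have e6 := In_add hU ok.ts f9 f10
  have e7 := In_add hU ok.ts f11 f12
  set T := fun z => χ z ^ 2 * sqd σ τ v₁ v₂ W a b z +
    (2 * (χ z ^ 2 * qq q (fun i => XX σ W a i z) z +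
      χ z ^ 2 * qq q' (fun i => XX τ W b i z) z) +
    (1 / 3 * (χ z ^ 2 * qE σ q W a z + χ z ^ 2 * qE τ q' W b z) +
    ((-κ₀) * (χ z ^ 2 * σ.P v₁ W a z ^ 2 + χ z ^ 2 * τ.P v₂ W b z ^ 2) +
    ((-(3 / η)) * (qq q (fun i => σ.D i χ z) z * a z ^ 2 +
      qq q' (fun i => τ.D i χ z) z * b z ^ 2) +
    (-(16 * η)) * (ro m z * (∑ i, σ.D i χ z ^ 2) * (∑ i, σ.D i W z ^ 2) * a z ^ 2 +
        ro m z * (∑ i, τ.D i χ z ^ 2) * (∑ i, τ.D i W z ^ 2) * b z ^ 2 +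
        (ro m z * (∑ i, σ.D i χ z ^ 2) * Ys σ W a z +
          ro m z * (∑ i, τ.D i χ z ^ 2) * Ys τ W b z)))))) with hT
  have k5 := ((f9.add hU f10).add hU (f11.add hU f12)).cmul hU (-(16 * η))
  have k4 := (f7.add hU f8).cmul hU (-(3 / η))
  have k3 := (f5.add hU f6).cmul hU (-κ₀)
  have k2 := (f3.add hU f4).cmul hU (1 / 3)
  have k1 := (f1.add hU f2).cmul hU 2
  have tT : Te U T := fg.add hU (k1.add hU (k2.add hU (k3.add hU (k4.add hU k5))))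
  have eT : In U θ T ≤ In U θ (fun z => χ z ^ 2 * dn σ τ v₁ v₂ W a b z) := by
    have := In_add hU ok.ts fg (k1.add hU (k2.add hU (k3.add hU (k4.add hU k5))))
    rw [In_add hU ok.ts k1 (k2.add hU (k3.add hU (k4.add hU k5))),
      In_add hU ok.ts k2 (k3.add hU (k4.add hU k5)), In_add hU ok.ts k3 (k4.add hU k5),
      In_add hU ok.ts k4 k5, In_cmul, In_cmul, In_cmul, In_cmul, In_cmul, e1, e2, e3, e4, e5,
      e6, e7] at this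
    have es : In U θ (fun z => χ z ^ 2 * sta σ τ v₁ v₂ W a b z) =
      In U θ (fun z => χ z ^ 2 * sd σ τ v₁ v₂ W a b z) := rfl
    rw [e0, es, hT, this]
    linarith
  refine le_trans ?_ eT
  have hχc : ContinuousOn (fun z => χ z ^ 2) U := hχ.continuousOn.pow 2
  have cM := Q8.int_dens ok ot hv₁ hv₂ hW ha hb
    (H338.E.ct_sm hχc (MQ_ct (κ₀ := κ₀) ok ot hW hq hq' hm))
  have cC := Q8.int_dens ok ot hv₁ hv₂ hW ha hb (coQ_ct (η := η) ok ot hW hχ hq hq' hm hp)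
  have es : In U θ (((MQ σ τ W q q' m κ₀).sm fun z => χ z ^ 2).dens σ τ v₁ v₂ W a b) -
      In U θ ((coQ σ τ W q q' m χ η).dens σ τ v₁ v₂ W a b) =
      ∫ z in U, (θ z * ((MQ σ τ W q q' m κ₀).sm fun z => χ z ^ 2).dens σ τ v₁ v₂ W a b z -
        θ z * (coQ σ τ W q q' m χ η).dens σ τ v₁ v₂ W a b z) := by
    unfold In
    rw [integral_sub cM cC]
  rw [es]
  refine setIntegral_mono_on (cM.sub cC) (te_int hU ok.ts tT) hU.measurableSet fun z hz => ?_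
  rw [← mul_sub]
  refine mul_le_mul_of_nonneg_left ?_ (ok.tp z hz).le
  have nD : 0 ≤ ∑ i, σ.D i χ z ^ 2 := Finset.sum_nonneg fun _ _ => sq_nonneg _
  have nD' : 0 ≤ ∑ i, τ.D i χ z ^ 2 := Finset.sum_nonneg fun _ _ => sq_nonneg _
  have rp : 0 ≤ ro m z := div_nonneg (hp z hz) (by linarith [hp z hz])
  have y1 := mul_le_mul_of_nonneg_left (Ys_le σ W a z) (mul_nonneg hη.le (mul_nonneg rp nD))
  have y2 := mul_le_mul_of_nonneg_left (Ys_le τ W b z) (mul_nonneg hη.le (mul_nonneg rp nD'))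
  have y3 : 0 ≤ χ z ^ 2 * (κ₀ * (τ.P v₂ W a z ^ 2 + σ.P v₁ W b z ^ 2)) := by positivity
  have s1 := sm₁ z hz
  have s2 := sm₂ z hz
  have pos1 : ∀ A : ι → ℝ, 0 ≤ qq q A z := fun A =>
    le_trans (mul_nonneg (hp z hz) (Finset.sum_nonneg fun _ _ => sq_nonneg _)) (s1.qm A)
  have pos2 : ∀ A : ι → ℝ, 0 ≤ qq q' A z := fun A =>
    le_trans (mul_nonneg (hp z hz) (Finset.sum_nonneg fun _ _ => sq_nonneg _)) (s2.qm A)
  have x1 : m z * nX σ W a z ≤ qq q (fun i => XX σ W a i z) z := s1.qm fun i => XX σ W a i z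
  have x2 : m z * nX τ W b z ≤ qq q' (fun i => XX τ W b i z) z := s2.qm fun i => XX τ W b i z
  have y5 : χ z ^ 2 * (m z * nX σ W a z) ≤ χ z ^ 2 * (2 * qq q (fun i => XX σ W a i z) z) :=
    mul_le_mul_of_nonneg_left (by
      have := pos1 fun i => XX σ W a i z
      linarith) (sq_nonneg _)
  have y6 : χ z ^ 2 * (m z * nX τ W b z) ≤ χ z ^ 2 * (2 * qq q' (fun i => XX τ W b i z) z) :=
    mul_le_mul_of_nonneg_left (by
      have := pos2 fun i => XX τ W b i z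
      linarith) (sq_nonneg _)
  have y7 : 0 ≤ χ z ^ 2 * qq q (fun i => σ.D i a z) z := mul_nonneg (sq_nonneg _) (pos1 _)
  have y8 : 0 ≤ χ z ^ 2 * qq q' (fun i => τ.D i b z) z := mul_nonneg (sq_nonneg _) (pos2 _)
  rw [Q8.dens_sm, hT]
  simp only [Q8.dens, MQ, coQ, qE]
  unfold sqd
  linarith

/-- **The zone inequality for general forms**, data smooth on `Ω`, `χ` vanishes off a closed set `S`
with `U ∩ S ⊆ Ω`. -/
theorem zoneQ (ok : σ.Ok U θ) (ot : τ.Ok U θ) (hv₁ : Sm U v₁) (hv₂ : Sm U v₂) (hW : Sm U W)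
    (hχ : Sm U χ) (hΩ : IsOpen Ω) (h : Ω ⊆ U) (hS : IsClosed S)
    (hSU : U ∩ S ⊆ Ω) (h0 : ∀ z ∈ U, z ∉ S → χ z = 0)
    (hc : ∀ i, Sm Ω (c i)) (hc' : ∀ i, Sm Ω (c' i))
    (hq : ∀ i j, Sm Ω (q i j)) (hy : ∀ i j z, q i j z = q j i z) (hq' : ∀ i j, Sm Ω (q' i j))
    (hy' : ∀ i j z, q' i j z = q' j i z) (hm : Sm Ω m)
    (hκ : 0 < κ₀) (hη : 0 < η) (hη1 : η ≤ 1 / 200) (hηκ : η ≤ κ₀)
    (hK : 0 ≤ K) (hηK : 2 * K * η ≤ 1)
    (sm₁ : ∀ z ∈ Ω, SmQ σ W q m c v₁ η K z) (sm₂ : ∀ z ∈ Ω, SmQ τ W q' m c' v₂ η K z)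
    (cert : ∀ z ∈ Ω, ∀ (A B : ι → ℝ) (x y : ℝ),
      4 * (qq q A z + qq q' B z) - η * (qq q (fun i => σ.D i W z) z * x ^ 2 +
        qq q' (fun i => τ.D i W z) z * y ^ 2) ≤
      8 * (Ch.TH σ τ W z A B + tc σ c W z A + tc τ c' W z B) + qf σ τ v₁ v₂ W z A B x y) :
    Zone σ τ U θ v₁ v₂ W χ ((MQ σ τ W q q' m κ₀).sm fun z => χ z ^ 2)
      (coQ σ τ W q q' m χ η) := by
  have key := zoneQ0 (Ok_mono ok hΩ h) (Ok_mono ot hΩ h) (hv₁.mono h) (hv₂.mono h) (hW.mono h)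
    (hχ.mono h) hc hc' hq hy hq' hy' hm hκ hη hη1 hηκ hK hηK sm₁ sm₂ cert
  exact zone_loc ok.op hΩ h hS hSU (eqOn_refl _ _) (eqOn_refl _ _) (eqOn_refl _ _)
    (eqOn_refl _ _) (fun z _ => Qe.rfl) (fun z _ => Qe.rfl) h0
    (fun z hz hs => MQ_0 (h0 z hz hs))
    (fun z hz hs => coQ_0 (Dz (σ := σ) ok.op hS h0 z hz hs) (Dz (σ := τ) ok.op hS h0 z hz hs)) key

/-- The zone inequality with the unit margin, all data smooth on `U`. -/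
theorem zone0_0 (ok : σ.Ok U θ) (ot : τ.Ok U θ) (hv₁ : Sm U v₁) (hv₂ : Sm U v₂) (hW : Sm U W)
    (hχ : Sm U χ) (hc : ∀ i, Sm U (c i)) (hc' : ∀ i, Sm U (c' i))
    (hq : ∀ i j, Sm U (q i j)) (hy : ∀ i j z, q i j z = q j i z) (hq' : ∀ i j, Sm U (q' i j))
    (hy' : ∀ i j z, q' i j z = q' j i z) (hm : Sm U m)
    (hκ : 0 < κ₀) (hη : 0 < η) (hη1 : η ≤ 1 / 200) (hηκ : η ≤ κ₀)
    (hK : 0 ≤ K) (hηK : 2 * K * η ≤ 1)
    (sm₁ : ∀ z ∈ U, SmQ σ W q m c v₁ η K z) (sm₂ : ∀ z ∈ U, SmQ τ W q' m c' v₂ η K z)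
    (cert : ∀ z ∈ U, ∀ (A B : ι → ℝ) (x y : ℝ),
      4 * (qq q A z + qq q' B z) - η * (qq q (fun i => σ.D i W z) z * x ^ 2 +
        qq q' (fun i => τ.D i W z) z * y ^ 2) ≤
      8 * (Ch.TH σ τ W z A B + tc σ c W z A + tc τ c' W z B) + qf σ τ v₁ v₂ W z A B x y)
    (el₁ : ∀ z ∈ U, El σ z) (el₂ : ∀ z ∈ U, El τ z) {s r₁ r₂ : E → ℝ} {δ : ℝ} (hs : Sm U s)
    (hδ : 0 < δ) (hδκ : 16 * δ ≤ 1 - κ₀)
    (hp : ∀ z ∈ U, P0 σ τ v₁ v₂ W q q' s r₁ r₂ δ z) :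
    Zone σ τ U θ v₁ v₂ W χ ((MS σ τ W q q' m s κ₀).sm fun z => χ z ^ 2)
      (coQ σ τ W q q' m χ η + cuq σ τ s χ) := by
  have base := zoneQ0 ok ot hv₁ hv₂ hW hχ hc hc' hq hy hq' hy' hm hκ hη hη1 hηκ hK hηK sm₁ sm₂ cert
  have hp0 : ∀ z ∈ U, 0 ≤ m z := fun z hz => (sm₁ z hz).m0
  set M : Q8 E := ⟨fun _ => 1 / 2 * (1 - κ₀), m, m, fun _ => 0,
    fun z => 1 / 6 * qq q (fun i => σ.D i W z) z, fun z => 1 / 6 * qq q' (fun i => τ.D i W z) z,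
    fun _ => 0, fun _ => 0⟩ with hM
  set N : Q8 E := ⟨fun _ => 1 / 2 * (1 - κ₀), fun _ => 0, fun _ => 0, fun _ => 0,
    fun z => 1 / 6 * qq q (fun i => σ.D i W z) z, fun z => 1 / 6 * qq q' (fun i => τ.D i W z) z,
    fun _ => 0, fun _ => 0⟩ with hN
  have e1 : MQ σ τ W q q' m κ₀ = M + N := by
    rw [hM, hN, Q8.add_def]
    unfold MQ
    congr 1 <;> funext z <;> simp only [Pi.add_apply] <;> ring
  have e2 : MS σ τ W q q' m s κ₀ = M + zsq σ τ W s := by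
    rw [hM, Q8.add_def]
    unfold MS zsq
    congr 1 <;> funext z <;> simp only [Pi.add_apply] <;> ring
  rw [e1] at base
  rw [e2]
  have c1 := (contDiffOn_const (c := (1 / 6 : ℝ))).mul (sDq ok hq hW)
  have c2 := (contDiffOn_const (c := (1 / 6 : ℝ))).mul (sDq ot hq' hW)
  have cM : M.Ct U := ⟨continuousOn_const, hm.continuousOn, hm.continuousOn, continuousOn_const,
    c1.continuousOn, c2.continuousOn, continuousOn_const, continuousOn_const⟩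
  have cN : N.Ct U := ⟨continuousOn_const, continuousOn_const, continuousOn_const,
    continuousOn_const, c1.continuousOn, c2.continuousOn, continuousOn_const, continuousOn_const⟩
  refine unit_of ok ot hv₁ hv₂ el₁ el₂ hW hχ hs (fun z hz => (hp z hz).s0) hδ cM cN
    (coQ_ct ok ot hW hχ hq hq' hm hp0) (r₁ := r₁) (r₂ := r₂) (fun z hz _ => ?_) base
  have p := hp z hz
  refine ⟨?_, le_rfl, le_rfl, le_rfl, fun x y => ?_, p.r₁, p.r₂⟩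
  · show 8 * δ ≤ 1 / 2 * (1 - κ₀)
    linarith
  · have h1 := mul_le_mul_of_nonneg_right p.Q₁ (sq_nonneg x)
    have h2 := mul_le_mul_of_nonneg_right p.Q₂ (sq_nonneg y)
    show _ ≤ 1 / 6 * qq q (fun i => σ.D i W z) z * x ^ 2 +
      1 / 6 * qq q' (fun i => τ.D i W z) z * y ^ 2 + 0 * (x + y) ^ 2 + 0 * (x - y) ^ 2
    linarith

/-- **The zone inequality with the unit margin**, data smooth on `Ω`. -/
theorem zone0 (ok : σ.Ok U θ) (ot : τ.Ok U θ) (hv₁ : Sm U v₁) (hv₂ : Sm U v₂) (hW : Sm U W)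
    (hχ : Sm U χ) (hΩ : IsOpen Ω) (h : Ω ⊆ U) (hS : IsClosed S)
    (hSU : U ∩ S ⊆ Ω) (h0 : ∀ z ∈ U, z ∉ S → χ z = 0)
    (hc : ∀ i, Sm Ω (c i)) (hc' : ∀ i, Sm Ω (c' i))
    (hq : ∀ i j, Sm Ω (q i j)) (hy : ∀ i j z, q i j z = q j i z) (hq' : ∀ i j, Sm Ω (q' i j))
    (hy' : ∀ i j z, q' i j z = q' j i z) (hm : Sm Ω m)
    (hκ : 0 < κ₀) (hη : 0 < η) (hη1 : η ≤ 1 / 200) (hηκ : η ≤ κ₀)
    (hK : 0 ≤ K) (hηK : 2 * K * η ≤ 1)
    (sm₁ : ∀ z ∈ Ω, SmQ σ W q m c v₁ η K z) (sm₂ : ∀ z ∈ Ω, SmQ τ W q' m c' v₂ η K z)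
    (cert : ∀ z ∈ Ω, ∀ (A B : ι → ℝ) (x y : ℝ),
      4 * (qq q A z + qq q' B z) - η * (qq q (fun i => σ.D i W z) z * x ^ 2 +
        qq q' (fun i => τ.D i W z) z * y ^ 2) ≤
      8 * (Ch.TH σ τ W z A B + tc σ c W z A + tc τ c' W z B) + qf σ τ v₁ v₂ W z A B x y)
    (el₁ : ∀ z ∈ Ω, El σ z) (el₂ : ∀ z ∈ Ω, El τ z) {s r₁ r₂ : E → ℝ} {δ : ℝ} (hs : Sm Ω s)
    (hδ : 0 < δ) (hδκ : 16 * δ ≤ 1 - κ₀)
    (hp : ∀ z ∈ Ω, P0 σ τ v₁ v₂ W q q' s r₁ r₂ δ z) :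
    Zone σ τ U θ v₁ v₂ W χ ((MS σ τ W q q' m s κ₀).sm fun z => χ z ^ 2)
      (coQ σ τ W q q' m χ η + cuq σ τ s χ) := by
  have key := zone0_0 (Ok_mono ok hΩ h) (Ok_mono ot hΩ h) (hv₁.mono h) (hv₂.mono h) (hW.mono h)
    (hχ.mono h) hc hc' hq hy hq' hy' hm hκ hη hη1 hηκ hK hηK sm₁ sm₂ cert el₁ el₂ hs hδ hδκ hp
  refine zone_loc ok.op hΩ h hS hSU (eqOn_refl _ _) (eqOn_refl _ _) (eqOn_refl _ _)
    (eqOn_refl _ _) (fun z _ => Qe.rfl) (fun z _ => Qe.rfl) h0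
    (fun z hz hs => MQ_0 (h0 z hz hs)) (fun z hz hs => ?_) key
  have d1 := Dz (σ := σ) ok.op hS h0 z hz hs
  have d2 := Dz (σ := τ) ok.op hS h0 z hz hs
  have q0 := coQ_0 (σ := σ) (τ := τ) (W := W) (q := q) (q' := q') (m := m) (η := η) d1 d2
  have g1 := Gz (σ := σ) ok.op hS h0 z hz hs
  have g2 := Gz (σ := τ) ok.op hS h0 z hz hs
  rw [Q8.add_def]
  constructor <;> simp only [Pi.add_apply, cuq]
  · rw [q0.κ]; ring
  · rw [q0.ζ₁]; ring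
  · rw [q0.ζ₂]; ring
  · rw [q0.ζy]; ring
  · rw [q0.w₁, g1]; ring
  · rw [q0.w₂, g2]; ring
  · rw [q0.wb]; ring
  · rw [q0.wc]; ring

/-- **Zone z0 in the letters of the table.**  `Z` vanishes off `S`. -/
theorem zone0T (ok : σ.Ok U θ) (ot : τ.Ok U θ) (hv₁ : Sm U v₁) (hv₂ : Sm U v₂) (hW : Sm U W)
    (hχ : Sm U χ) (hΩ : IsOpen Ω) (h : Ω ⊆ U) (hS : IsClosed S)
    (hSU : U ∩ S ⊆ Ω) (h0 : ∀ z ∈ U, z ∉ S → χ z = 0)
    (hc : ∀ i, Sm Ω (c i)) (hc' : ∀ i, Sm Ω (c' i))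
    (hq : ∀ i j, Sm Ω (q i j)) (hy : ∀ i j z, q i j z = q j i z) (hq' : ∀ i j, Sm Ω (q' i j))
    (hy' : ∀ i j z, q' i j z = q' j i z) (hm : Sm Ω m)
    (hκ : 0 < κ₀) (hη : 0 < η) (hη1 : η ≤ 1 / 200) (hηκ : η ≤ κ₀)
    (hK : 0 ≤ K) (hηK : 2 * K * η ≤ 1)
    (sm₁ : ∀ z ∈ Ω, SmQ σ W q m c v₁ η K z) (sm₂ : ∀ z ∈ Ω, SmQ τ W q' m c' v₂ η K z)
    (cert : ∀ z ∈ Ω, ∀ (A B : ι → ℝ) (x y : ℝ),
      4 * (qq q A z + qq q' B z) - η * (qq q (fun i => σ.D i W z) z * x ^ 2 +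
        qq q' (fun i => τ.D i W z) z * y ^ 2) ≤
      8 * (Ch.TH σ τ W z A B + tc σ c W z A + tc τ c' W z B) + qf σ τ v₁ v₂ W z A B x y)
    (el₁ : ∀ z ∈ Ω, El σ z) (el₂ : ∀ z ∈ Ω, El τ z) {s r₁ r₂ : E → ℝ} {δ : ℝ} (hs : Sm Ω s)
    (hδ : 0 < δ) (hδκ : 16 * δ ≤ 1 - κ₀)
    (hp : ∀ z ∈ Ω, P0 σ τ v₁ v₂ W q q' s r₁ r₂ δ z)
    {ν : Tab.Nu E} {Z : E → ℝ} {c₀ C₁ sg : ℝ} (hc0 : 0 ≤ c₀) (hcκ : c₀ ≤ 1 / 2 * (1 - κ₀))
    (hC : 1 ≤ C₁) (hE : ContinuousOn ν.En Ω) (hN : ContinuousOn ν.N Ω)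
    (hKc : ContinuousOn ν.K Ω) (hZ : ContinuousOn Z Ω)
    (hZ0 : ∀ z ∈ U, z ∉ S → Z z = 0)
    (hT : ∀ z ∈ Ω, P0T σ τ W q q' m s Z χ ν c₀ C₁ sg z) :
    Zone σ τ U θ v₁ v₂ W χ ((Tab.M0 ν c₀ sg).sm fun z => χ z ^ 2)
      (Tab.c0 ν (500 * C₁ ^ 2) sg Z η) := by
  have ok' := Ok_mono ok hΩ h
  have ot' := Ok_mono ot hΩ h
  have base := zone0_0 ok' ot' (hv₁.mono h) (hv₂.mono h) (hW.mono h)
    (hχ.mono h) hc hc' hq hy hq' hy' hm hκ hη hη1 hηκ hK hηK sm₁ sm₂ cert el₁ el₂ hs hδ hδκ hp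
  have hχc : ContinuousOn (fun z => χ z ^ 2) Ω := (hχ.mono h).continuousOn.pow 2
  have hm0 : ∀ z ∈ Ω, 0 ≤ m z := fun z hz => (sm₁ z hz).m0
  have he : ContinuousOn (fun z => ν.En z + sg * ν.N z) Ω := hE.add (continuousOn_const.mul hN)
  have hN2 : ContinuousOn (fun z => ν.N z ^ 2) Ω := hN.pow 2
  have ctM : (Tab.M0 ν c₀ sg).Ct Ω := ⟨continuousOn_const, continuousOn_const.mul he,
    continuousOn_const.mul he, continuousOn_const.mul hE, continuousOn_const.mul (he.mul hN2),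
    continuousOn_const.mul (he.mul hN2), continuousOn_const, continuousOn_const⟩
  have hx : ContinuousOn (fun z => (ν.En z + sg * ν.N z) / (1 + (ν.En z + sg * ν.N z))) Ω :=
    he.div (continuousOn_const.add he) fun z hz => by
      have := add_nonneg (hT z hz).En (hT z hz).N
      positivity
  have hw := (((continuousOn_const (c := 1 / η)).mul (hKc.add he)).add
    (((continuousOn_const (c := η)).mul hN2).mul hx)).mul hZ
  have ctC : (Tab.c0 ν (500 * C₁ ^ 2) sg Z η).Ct Ω := ⟨continuousOn_const,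
    continuousOn_const.mul (continuousOn_const.mul (hx.mul hZ)),
    continuousOn_const.mul (continuousOn_const.mul (hx.mul hZ)), continuousOn_const,
    continuousOn_const.mul hw, continuousOn_const.mul hw, continuousOn_const, continuousOn_const⟩
  have key : Zone σ τ Ω θ v₁ v₂ W χ ((Tab.M0 ν c₀ sg).sm fun z => χ z ^ 2)
      (Tab.c0 ν (500 * C₁ ^ 2) sg Z η) := by
    refine H338.C.zone_mono ok' ot' (hv₁.mono h) (hv₂.mono h) (hW.mono h) base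
      (H338.E.ct_sm hχc (MS_ct ok' ot' (hW.mono h) hq hq' hm hs))
      (ct_add (coQ_ct ok' ot' (hW.mono h) (hχ.mono h) hq hq' hm hm0)
        (cuq_ct ok' ot' (hχ.mono h) hs.continuousOn))
      (H338.E.ct_sm hχc ctM) ctC fun z hz a b => ?_
    rw [Q8.dens_sm, Q8.dens_sm]
    have h1 := mul_le_mul_of_nonneg_left (M0_le (v₁ := v₁) (v₂ := v₂) (κ₀ := κ₀) (hT z hz) hc0 hcκ
      a b) (sq_nonneg (χ z))
    have h2 := c0_le (v₁ := v₁) (v₂ := v₂) (hT z hz) (el₁ z hz) (el₂ z hz) hη (by linarith) hC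
      (hm0 z hz) (hp z hz).s0 a b
    linarith
  refine zone_loc ok.op hΩ h hS hSU (eqOn_refl _ _) (eqOn_refl _ _) (eqOn_refl _ _)
    (eqOn_refl _ _) (fun z _ => Qe.rfl) (fun z _ => Qe.rfl) h0
    (fun z hz hs => MQ_0 (h0 z hz hs)) (fun z hz hs => ?_) key
  constructor <;> simp [Tab.c0, hZ0 z hz hs]

end Vale.Agent.P088.R2.H808.Zq
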